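import Vale.Agent.Lib.P125.Chain

/-!
Variance budget for a lazy chain: along a fixed total time, the local Dirichlet energies of a
bounded function sum to at most a constant (Doob martingale orthogonality).
-/

namespace Vale.Agent.Lib.P125

open Finset Matrix

namespace Chain

variable {S : Type} [Fintype S] [DecidableEq S] (C : Chain S)

/-- Local Dirichlet energy at `w`. -/
def En (h : S → ℝ) (w : S) : ℝ := ∑ y, C.P w y * (h y - h w) ^ 2

/-- Local one step variance at `w`. -/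
def Vr (h : S → ℝ) (w : S) : ℝ := ∑ y, C.P w y * (h y) ^ 2 - (∑ y, C.P w y * h y) ^ 2

lemma En_nonneg (h : S → ℝ) (w : S) : 0 ≤ C.En h w :=
  Finset.sum_nonneg fun y _ => mul_nonneg (C.P_nonneg w y) (sq_nonneg _)

lemma En_le_Vr {h : S → ℝ} {w : S} (hl : 1 / 2 ≤ C.P w w) : C.En h w ≤ 3 * C.Vr h w := by
  set A := ∑ y, C.P w y * (h y) ^ 2 with hA
  set μ := ∑ y, C.P w y * h y with hμ
  have hsum := C.P_sum w
  have e1 : C.En h w = A - 2 * h w * μ + (h w) ^ 2 := by
    unfold En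
    have : ∀ y, C.P w y * (h y - h w) ^ 2
        = C.P w y * (h y) ^ 2 - 2 * h w * (C.P w y * h y) + (h w) ^ 2 * C.P w y := by
      intro y; ring
    simp only [this, Finset.sum_add_distrib, Finset.sum_sub_distrib, ← Finset.mul_sum, hsum]
    rw [← hA, ← hμ]; ring
  have e2 : ∑ y, C.P w y * (h y - μ) ^ 2 = A - μ ^ 2 := by
    have : ∀ y, C.P w y * (h y - μ) ^ 2
        = C.P w y * (h y) ^ 2 - 2 * μ * (C.P w y * h y) + μ ^ 2 * C.P w y := by
      intro y; ring
    simp only [this, Finset.sum_add_distrib, Finset.sum_sub_distrib, ← Finset.mul_sum, hsum]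
    rw [← hA, ← hμ]; ring
  have e3 : C.P w w * (h w - μ) ^ 2 ≤ ∑ y, C.P w y * (h y - μ) ^ 2 :=
    Finset.single_le_sum (f := fun y => C.P w y * (h y - μ) ^ 2)
      (fun y _ => mul_nonneg (C.P_nonneg w y) (sq_nonneg _)) (Finset.mem_univ w)
  have e4 : (1 / 2) * (h w - μ) ^ 2 ≤ C.P w w * (h w - μ) ^ 2 :=
    mul_le_mul_of_nonneg_right hl (sq_nonneg _)
  have e5 : C.Vr h w = A - μ ^ 2 := rfl
  rw [e1, e5]
  nlinarith [sq_nonneg (h w - μ)]

lemma av_mono (r : ℕ) {v v' : S → ℝ} (h : ∀ w, v w ≤ v' w) (c : S) : C.av r v c ≤ C.av r v' c :=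
  Finset.sum_le_sum fun w _ => mul_le_mul_of_nonneg_left (h w) (C.pow_nonneg' r c w)

lemma av_nonneg (r : ℕ) {v : S → ℝ} (h : ∀ w, 0 ≤ v w) (c : S) : 0 ≤ C.av r v c :=
  Finset.sum_nonneg fun w _ => mul_nonneg (C.pow_nonneg' r c w) (h w)

lemma av_const_mul (r : ℕ) (a : ℝ) (v : S → ℝ) (c : S) :
    C.av r (fun w => a * v w) c = a * C.av r v c := by
  unfold av
  rw [Finset.mul_sum]
  exact Finset.sum_congr rfl fun w _ => by ring

lemma av_const (r : ℕ) (a : ℝ) (c : S) : C.av r (fun _ => a) c = a := by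
  unfold av
  rw [← Finset.sum_mul, C.pow_sum, one_mul]

/-- Variance of `g` at time `n` from `c`. -/
def Bv (g : S → ℝ) (n : ℕ) (c : S) : ℝ := C.av n (fun w => (g w) ^ 2) c - (C.av n g c) ^ 2

lemma Bv_succ (g : S → ℝ) (n : ℕ) (c : S) :
    C.Bv g (n + 1) c = (∑ u, C.P c u * C.Bv g n u) + C.Vr (C.av n g) c := by
  unfold Bv Vr
  rw [C.av_succ n (fun w => (g w) ^ 2) c, C.av_succ n g c]
  have : ∑ u, C.P c u * (C.av n (fun w => (g w) ^ 2) u - (C.av n g u) ^ 2)
      = ∑ u, C.P c u * C.av n (fun w => (g w) ^ 2) u - ∑ u, C.P c u * (C.av n g u) ^ 2 := by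
    rw [← Finset.sum_sub_distrib]
    exact Finset.sum_congr rfl fun u _ => by ring
  rw [this]
  ring

lemma Bv_zero (g : S → ℝ) (c : S) : C.Bv g 0 c = 0 := by
  unfold Bv
  rw [av_zero, av_zero]
  ring

/-- Total variance decomposition along the first `n+1` steps. -/
lemma doob_total (g : S → ℝ) (n : ℕ) (c : S) :
    ∑ r ∈ range (n + 1), C.av r (C.Vr (C.av (n - r) g)) c = C.Bv g (n + 1) c := by
  induction n generalizing c with
  | zero =>
    simp only [zero_add, Finset.sum_range_one, Nat.sub_zero]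
    rw [av_zero, show (1 : ℕ) = 0 + 1 from rfl, Bv_succ]
    simp [Bv_zero]
  | succ n ih =>
    rw [Finset.sum_range_succ', Bv_succ, Nat.sub_zero, av_zero]
    congr 1
    have e : ∀ r ∈ range (n + 1), C.av (r + 1) (C.Vr (C.av (n + 1 - (r + 1)) g)) c
        = ∑ u, C.P c u * C.av r (C.Vr (C.av (n - r) g)) u := by
      intro r _
      rw [C.av_succ, Nat.add_sub_add_right]
    rw [Finset.sum_congr rfl e, Finset.sum_comm]
    refine Finset.sum_congr rfl fun u _ => ?_
    rw [← Finset.mul_sum, ih u]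

lemma Bv_le_one {g : S → ℝ} (hg : ∀ w, (g w) ^ 2 ≤ 1) (n : ℕ) (c : S) : C.Bv g n c ≤ 1 := by
  unfold Bv
  have h1 : C.av n (fun w => (g w) ^ 2) c ≤ C.av n (fun _ => (1 : ℝ)) c := C.av_mono n hg c
  rw [av_const] at h1
  nlinarith [sq_nonneg (C.av n g c)]

/-- Energy budget on a fixed antidiagonal. -/
lemma energy_antidiag (hlazy : ∀ w, 1 / 2 ≤ C.P w w) {g : S → ℝ} (hg : ∀ w, (g w) ^ 2 ≤ 1)
    (n : ℕ) (c : S) :
    ∑ r ∈ range (n + 1), C.av r (C.En (C.av (n - r) g)) c ≤ 3 := by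
  calc ∑ r ∈ range (n + 1), C.av r (C.En (C.av (n - r) g)) c
      ≤ ∑ r ∈ range (n + 1), C.av r (fun w => 3 * C.Vr (C.av (n - r) g) w) c :=
        Finset.sum_le_sum fun r _ => C.av_mono r (fun w => C.En_le_Vr (hlazy w)) c
    _ = 3 * ∑ r ∈ range (n + 1), C.av r (C.Vr (C.av (n - r) g)) c := by
        rw [Finset.mul_sum]
        exact Finset.sum_congr rfl fun r _ => C.av_const_mul r 3 _ c
    _ = 3 * C.Bv g (n + 1) c := by rw [doob_total]
    _ ≤ 3 := by
        have := C.Bv_le_one hg (n + 1) c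
        linarith

/-- Rearranging a square of nonnegative terms over antidiagonals. -/
lemma sum_square_le_antidiag (a : ℕ → ℕ → ℝ) (ha : ∀ r s, 0 ≤ a r s) (t : ℕ) :
    ∑ r ∈ range t, ∑ s ∈ range t, a r s
      ≤ ∑ n ∈ range (2 * t), ∑ r ∈ range (n + 1), a r (n - r) := by
  classical
  rw [← Finset.sum_product', Finset.sum_sigma']
  let e : ℕ × ℕ → (Σ _ : ℕ, ℕ) := fun p => ⟨p.1 + p.2, p.1⟩
  have einj : Set.InjOn e ((range t ×ˢ range t : Finset (ℕ × ℕ)) : Set (ℕ × ℕ)) := by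
    rintro ⟨r, s⟩ _ ⟨r', s'⟩ _ h
    simp only [e, Sigma.mk.injEq, heq_eq_eq] at h
    obtain ⟨h1, h2⟩ := h
    subst h2
    have : s = s' := by omega
    subst this
    rfl
  have himg : ((range t ×ˢ range t).image e) ⊆
      (range (2 * t)).sigma (fun n => range (n + 1)) := by
    intro x hx
    obtain ⟨⟨r, s⟩, hp, rfl⟩ := Finset.mem_image.mp hx
    simp only [Finset.mem_product, Finset.mem_range] at hp
    simp only [e, Finset.mem_sigma, Finset.mem_range]
    omega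
  calc ∑ p ∈ range t ×ˢ range t, a p.1 p.2
      = ∑ x ∈ (range t ×ˢ range t).image e, a x.2 (x.1 - x.2) := by
        rw [Finset.sum_image einj]
        refine Finset.sum_congr rfl fun p _ => ?_
        simp [e]
    _ ≤ _ := Finset.sum_le_sum_of_subset_of_nonneg himg (fun _ _ _ => ha _ _)

/-- The main energy budget over a `t × t` square of times. -/
lemma energy_square (hlazy : ∀ w, 1 / 2 ≤ C.P w w) {g : S → ℝ} (hg : ∀ w, (g w) ^ 2 ≤ 1)
    (t : ℕ) (c : S) :
    ∑ r ∈ range t, ∑ s ∈ range t, C.av r (C.En (C.av s g)) c ≤ 6 * t := by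
  have ha : ∀ r s, 0 ≤ C.av r (C.En (C.av s g)) c :=
    fun r s => C.av_nonneg r (fun w => C.En_nonneg _ w) c
  calc ∑ r ∈ range t, ∑ s ∈ range t, C.av r (C.En (C.av s g)) c
      ≤ ∑ n ∈ range (2 * t), ∑ r ∈ range (n + 1), C.av r (C.En (C.av (n - r) g)) c :=
        sum_square_le_antidiag _ ha t
    _ ≤ ∑ _n ∈ range (2 * t), (3 : ℝ) :=
        Finset.sum_le_sum fun n _ => C.energy_antidiag hlazy hg n c
    _ = 6 * t := by
        rw [Finset.sum_const, Finset.card_range, nsmul_eq_mul]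
        push_cast
        ring

end Chain

end Vale.Agent.Lib.P125
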