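import Mathlib

/-!
Basic facts on finite stationary reversible Markov chains, used for the summing operator
estimates.  All quantities are finite sums.
-/

namespace Vale.Agent.Lib.P125

open Finset Matrix

/-- A finite stationary reversible Markov chain. -/
structure Chain (S : Type) [Fintype S] [DecidableEq S] where
  pi : S → ℝ
  P : Matrix S S ℝ
  pi_nonneg : ∀ x, 0 ≤ pi x
  P_nonneg : ∀ x y, 0 ≤ P x y
  P_sum : ∀ x, ∑ y, P x y = 1
  pi_sum : ∑ x, pi x = 1
  rev : ∀ x y, pi x * P x y = pi y * P y x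

namespace Chain

variable {S : Type} [Fintype S] [DecidableEq S] (C : Chain S)

lemma pow_add_apply (a b : ℕ) (x y : S) :
    (C.P ^ (a + b)) x y = ∑ u, (C.P ^ a) x u * (C.P ^ b) u y := by
  rw [pow_add, Matrix.mul_apply]

lemma pow_succ_apply (t : ℕ) (x y : S) :
    (C.P ^ (t + 1)) x y = ∑ u, (C.P ^ t) x u * C.P u y := by
  rw [pow_succ, Matrix.mul_apply]

lemma pow_succ_apply' (t : ℕ) (x y : S) :
    (C.P ^ (t + 1)) x y = ∑ u, C.P x u * (C.P ^ t) u y := by
  rw [pow_succ', Matrix.mul_apply]

lemma pow_nonneg' (t : ℕ) (x y : S) : 0 ≤ (C.P ^ t) x y := by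
  induction t generalizing x y with
  | zero =>
    simp only [pow_zero, Matrix.one_apply]
    split_ifs <;> norm_num
  | succ t ih =>
    rw [pow_succ_apply]
    exact Finset.sum_nonneg fun u _ => mul_nonneg (ih x u) (C.P_nonneg u y)

lemma pow_sum (t : ℕ) (x : S) : ∑ y, (C.P ^ t) x y = 1 := by
  induction t generalizing x with
  | zero =>
    simp [Matrix.one_apply]
  | succ t ih =>
    calc ∑ y, (C.P ^ (t + 1)) x y = ∑ y, ∑ u, (C.P ^ t) x u * C.P u y := by
          exact Finset.sum_congr rfl fun y _ => pow_succ_apply C t x y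
      _ = ∑ u, (C.P ^ t) x u * ∑ y, C.P u y := by
          rw [Finset.sum_comm]
          exact Finset.sum_congr rfl fun u _ => (Finset.mul_sum _ _ _).symm
      _ = 1 := by
          simp only [C.P_sum, mul_one]
          exact ih x

lemma pow_rev (t : ℕ) (x y : S) : C.pi x * (C.P ^ t) x y = C.pi y * (C.P ^ t) y x := by
  induction t generalizing x y with
  | zero =>
    simp only [pow_zero, Matrix.one_apply]
    by_cases h : x = y
    · subst h; simp
    · have h' : ¬ y = x := fun e => h e.symm
      simp [h, h']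
  | succ t ih =>
    rw [pow_succ_apply, pow_succ_apply', Finset.mul_sum, Finset.mul_sum]
    refine Finset.sum_congr rfl fun u _ => ?_
    calc C.pi x * ((C.P ^ t) x u * C.P u y) = (C.pi x * (C.P ^ t) x u) * C.P u y := by ring
      _ = (C.pi u * (C.P ^ t) u x) * C.P u y := by rw [ih]
      _ = (C.pi u * C.P u y) * (C.P ^ t) u x := by ring
      _ = (C.pi y * C.P y u) * (C.P ^ t) u x := by rw [C.rev]
      _ = C.pi y * (C.P y u * (C.P ^ t) u x) := by ring

lemma pow_stationary (t : ℕ) (y : S) : ∑ x, C.pi x * (C.P ^ t) x y = C.pi y := by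
  calc ∑ x, C.pi x * (C.P ^ t) x y = ∑ x, C.pi y * (C.P ^ t) y x :=
        Finset.sum_congr rfl fun x _ => pow_rev C t x y
    _ = C.pi y := by rw [← Finset.mul_sum, pow_sum, mul_one]

/-- `P^t` acting on functions. -/
def av (t : ℕ) (h : S → ℝ) (x : S) : ℝ := ∑ y, (C.P ^ t) x y * h y

lemma av_zero (h : S → ℝ) (x : S) : C.av 0 h x = h x := by
  simp [av, Matrix.one_apply]

lemma av_succ (t : ℕ) (h : S → ℝ) (x : S) : C.av (t + 1) h x = ∑ y, C.P x y * C.av t h y := by
  unfold av
  calc ∑ y, (C.P ^ (t + 1)) x y * h y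
      = ∑ y, ∑ u, C.P x u * ((C.P ^ t) u y * h y) := by
        refine Finset.sum_congr rfl fun y _ => ?_
        rw [pow_succ_apply', Finset.sum_mul]
        exact Finset.sum_congr rfl fun u _ => by ring
    _ = ∑ u, C.P x u * ∑ y, (C.P ^ t) u y * h y := by
        rw [Finset.sum_comm]
        exact Finset.sum_congr rfl fun u _ => (Finset.mul_sum _ _ _).symm

lemma av_add (a b : ℕ) (h : S → ℝ) (x : S) :
    C.av (a + b) h x = ∑ w, (C.P ^ a) x w * C.av b h w := by
  unfold av
  calc ∑ y, (C.P ^ (a + b)) x y * h y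
      = ∑ y, ∑ w, (C.P ^ a) x w * ((C.P ^ b) w y * h y) := by
        refine Finset.sum_congr rfl fun y _ => ?_
        rw [pow_add_apply, Finset.sum_mul]
        exact Finset.sum_congr rfl fun u _ => by ring
    _ = ∑ w, (C.P ^ a) x w * ∑ y, (C.P ^ b) w y * h y := by
        rw [Finset.sum_comm]
        exact Finset.sum_congr rfl fun u _ => (Finset.mul_sum _ _ _).symm

/-- Self-adjointness of `P^s` in `L²(π)`. -/
lemma av_selfadj (s : ℕ) (g h : S → ℝ) :
    ∑ z, C.pi z * g z * C.av s h z = ∑ z, C.pi z * C.av s g z * h z := by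
  unfold av
  calc ∑ z, C.pi z * g z * ∑ y, (C.P ^ s) z y * h y
      = ∑ z, ∑ y, (C.pi z * (C.P ^ s) z y) * g z * h y := by
        refine Finset.sum_congr rfl fun z _ => ?_
        rw [Finset.mul_sum]
        exact Finset.sum_congr rfl fun y _ => by ring
    _ = ∑ y, ∑ z, (C.pi y * (C.P ^ s) y z) * g z * h y := by
        rw [Finset.sum_comm]
        refine Finset.sum_congr rfl fun y _ => Finset.sum_congr rfl fun z _ => ?_
        rw [pow_rev]
    _ = ∑ y, C.pi y * (∑ z, (C.P ^ s) y z * g z) * h y := by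
        refine Finset.sum_congr rfl fun y _ => ?_
        rw [Finset.mul_sum, Finset.sum_mul]
        exact Finset.sum_congr rfl fun z _ => by ring

/-- Edge expectation (Dirichlet form identity). -/
lemma dirichlet (g h : S → ℝ) :
    ∑ z, C.pi z * g z * (C.av 1 h z - h z)
      = -(1 / 2) * ∑ x, ∑ y, C.pi x * C.P x y * ((g y - g x) * (h y - h x)) := by
  have hav : ∀ z, C.av 1 h z = ∑ y, C.P z y * h y := by
    intro z; simp [av]
  have e1 : ∑ z, C.pi z * g z * (C.av 1 h z - h z)
      = ∑ x, ∑ y, C.pi x * C.P x y * (g x * (h y - h x)) := by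
    refine Finset.sum_congr rfl fun x _ => ?_
    rw [hav]
    have : ∑ y, C.pi x * C.P x y * (g x * (h y - h x))
        = C.pi x * g x * (∑ y, C.P x y * h y - (∑ y, C.P x y) * h x) := by
      rw [Finset.sum_mul, ← Finset.sum_sub_distrib, Finset.mul_sum]
      exact Finset.sum_congr rfl fun y _ => by ring
    rw [this, C.P_sum, one_mul]
  have e2 : ∑ x, ∑ y, C.pi x * C.P x y * (g x * (h y - h x))
      = ∑ x, ∑ y, C.pi x * C.P x y * (g y * (h x - h y)) := by
    rw [Finset.sum_comm]
    refine Finset.sum_congr rfl fun x _ => Finset.sum_congr rfl fun y _ => ?_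
    rw [C.rev y x]
  have e3 : ∑ x, ∑ y, C.pi x * C.P x y * ((g y - g x) * (h y - h x))
      = - (∑ x, ∑ y, C.pi x * C.P x y * (g x * (h y - h x)))
        - (∑ x, ∑ y, C.pi x * C.P x y * (g y * (h x - h y))) := by
    rw [← Finset.sum_neg_distrib, ← Finset.sum_sub_distrib]
    refine Finset.sum_congr rfl fun x _ => ?_
    rw [← Finset.sum_neg_distrib, ← Finset.sum_sub_distrib]
    exact Finset.sum_congr rfl fun y _ => by ring
  rw [e1, e3, ← e2]
  ring

/-- Edge form of the telescoped displacement. -/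
lemma displacement_dirichlet (t : ℕ) (g h : S → ℝ) :
    ∑ z, C.pi z * g z * (C.av t h z - h z)
      = -(1 / 2) * ∑ x, ∑ y, C.pi x * C.P x y *
          ((∑ s ∈ range t, (C.av s g y - C.av s g x)) * (h y - h x)) := by
  induction t with
  | zero =>
    simp [av_zero]
  | succ t ih =>
    have step : ∑ z, C.pi z * g z * (C.av (t + 1) h z - C.av t h z)
        = -(1 / 2) * ∑ x, ∑ y, C.pi x * C.P x y *
            ((C.av t g y - C.av t g x) * (h y - h x)) := by
      have e : ∀ z, C.av (t + 1) h z - C.av t h z = C.av t (fun w => C.av 1 h w - h w) z := by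
        intro z
        have := av_add C t 1 h z
        rw [this]
        unfold av
        rw [← Finset.sum_sub_distrib]
        exact Finset.sum_congr rfl fun w _ => by ring
      calc ∑ z, C.pi z * g z * (C.av (t + 1) h z - C.av t h z)
          = ∑ z, C.pi z * g z * C.av t (fun w => C.av 1 h w - h w) z :=
            Finset.sum_congr rfl fun z _ => by rw [e]
        _ = ∑ z, C.pi z * C.av t g z * (C.av 1 h z - h z) := av_selfadj C t g _
        _ = _ := dirichlet C (C.av t g) h
    have split : ∑ z, C.pi z * g z * (C.av (t + 1) h z - h z)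
        = ∑ z, C.pi z * g z * (C.av (t + 1) h z - C.av t h z)
          + ∑ z, C.pi z * g z * (C.av t h z - h z) := by
      rw [← Finset.sum_add_distrib]
      exact Finset.sum_congr rfl fun z _ => by ring
    rw [split, step, ih, ← mul_add, ← Finset.sum_add_distrib]
    congr 1
    refine Finset.sum_congr rfl fun x _ => ?_
    rw [← Finset.sum_add_distrib]
    refine Finset.sum_congr rfl fun y _ => ?_
    rw [Finset.sum_range_succ]
    ring

end Chain

end Vale.Agent.Lib.P125
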