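import Vale.Agent.Lib.P125.Budget

/-!
Cramer von Mises type inequality and the cubic Kolmogorov Smirnov estimate along a lazy
reversible chain.
-/

namespace Vale.Agent.Lib.P125

open Finset Matrix

section Abstract

variable {S : Type} [Fintype S] [DecidableEq S]

/-- Threshold indicator of a label. -/
def thr (k : S → ℕ) (τ : ℕ) (z : S) : ℝ := if τ ≤ k z then 1 else 0

/-- Signed tail of two weights. -/
def tailS (k : S → ℕ) (m m' : S → ℝ) (τ : ℕ) : ℝ := ∑ c, (m' c - m c) * thr k τ c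

lemma thr_sq_le (k : S → ℕ) (τ : ℕ) (z : S) : (thr k τ z) ^ 2 ≤ 1 := by
  unfold thr
  split_ifs <;> norm_num

lemma thr_nonneg (k : S → ℕ) (τ : ℕ) (z : S) : 0 ≤ thr k τ z := by
  unfold thr
  split_ifs <;> norm_num

lemma thr_le_one (k : S → ℕ) (τ : ℕ) (z : S) : thr k τ z ≤ 1 := by
  unfold thr
  split_ifs <;> norm_num

lemma scalar_step {a b M : ℝ} (hM : 0 ≤ M) (h : a - b ≤ M) :
    (max a 0) ^ 3 ≤ (max b 0) ^ 3 + 3 * (M * a ^ 2) := by
  have hb3 : 0 ≤ (max b 0) ^ 3 := pow_nonneg (le_max_right _ _) 3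
  have hMa : 0 ≤ M * a ^ 2 := mul_nonneg hM (sq_nonneg _)
  by_cases ha : a ≤ 0
  · rw [max_eq_right ha]
    have : (0 : ℝ) ^ 3 = 0 := by norm_num
    rw [this]
    linarith
  · push Not at ha
    rw [max_eq_left ha.le]
    by_cases hb : b ≤ 0
    · rw [max_eq_right hb]
      have : (0 : ℝ) ^ 3 = 0 := by norm_num
      rw [this, zero_add]
      have h1 : a ≤ M := by linarith
      have h2 : a ^ 3 = a * a ^ 2 := by ring
      rw [h2]
      have h3 : a * a ^ 2 ≤ M * a ^ 2 := mul_le_mul_of_nonneg_right h1 (sq_nonneg _)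
      linarith
    · push Not at hb
      rw [max_eq_left hb.le]
      by_cases hab : a ≤ b
      · have : a ^ 3 ≤ b ^ 3 := pow_le_pow_left₀ ha.le hab 3
        linarith
      · push Not at hab
        have h1 : a ^ 3 - b ^ 3 = (a - b) * (a ^ 2 + a * b + b ^ 2) := by ring
        have h2 : a ^ 2 + a * b + b ^ 2 ≤ 3 * a ^ 2 := by nlinarith
        have h3 : 0 ≤ a - b := by linarith
        have h4 : (a - b) * (a ^ 2 + a * b + b ^ 2) ≤ (a - b) * (3 * a ^ 2) :=
          mul_le_mul_of_nonneg_left h2 h3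
        have h5 : (a - b) * (3 * a ^ 2) ≤ M * (3 * a ^ 2) :=
          mul_le_mul_of_nonneg_right h (by positivity)
        nlinarith

lemma cvm_pos_aux (k : S → ℕ) (m m' : S → ℝ) (hm : ∀ c, 0 ≤ m c) (hm' : ∀ c, 0 ≤ m' c)
    (N : ℕ) (hN : ∀ c, k c < N) (d : ℕ) (τ : ℕ) (hτ : N ≤ τ + d) :
    (max (tailS k m m' τ) 0) ^ 3
      ≤ 3 * ∑ c, m' c * thr k τ c * (tailS k m m' (k c)) ^ 2 := by
  induction d generalizing τ with
  | zero =>
    have h0 : tailS k m m' τ = 0 := by
      unfold tailS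
      refine Finset.sum_eq_zero fun c _ => ?_
      have : ¬ τ ≤ k c := by have := hN c; omega
      simp [thr, this]
    rw [h0]
    have : (max (0 : ℝ) 0) ^ 3 = 0 := by norm_num
    rw [this]
    have : 0 ≤ ∑ c, m' c * thr k τ c * (tailS k m m' (k c)) ^ 2 :=
      Finset.sum_nonneg fun c _ =>
        mul_nonneg (mul_nonneg (hm' c) (thr_nonneg _ _ _)) (sq_nonneg _)
    linarith
  | succ d ih =>
    have ih' := ih (τ + 1) (by omega)
    set M : ℝ := ∑ c, m' c * (if k c = τ then 1 else 0) with hMdef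
    have hMnn : 0 ≤ M := Finset.sum_nonneg fun c _ => mul_nonneg (hm' c) (by split_ifs <;> norm_num)
    have hthr : ∀ c, thr k τ c = thr k (τ + 1) c + (if k c = τ then 1 else 0) := by
      intro c
      unfold thr
      by_cases h1 : τ + 1 ≤ k c
      · have h2 : τ ≤ k c := by omega
        have h3 : ¬ k c = τ := by omega
        simp [h1, h2, h3]
      · by_cases h2 : k c = τ
        · simp [h2]
        · have h3 : ¬ τ ≤ k c := by omega
          simp [h1, h2, h3]
    have hdiff : tailS k m m' τ - tailS k m m' (τ + 1) ≤ M := by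
      unfold tailS
      rw [← Finset.sum_sub_distrib, hMdef]
      refine Finset.sum_le_sum fun c _ => ?_
      rw [hthr c]
      have : 0 ≤ m c * (if k c = τ then (1 : ℝ) else 0) :=
        mul_nonneg (hm c) (by split_ifs <;> norm_num)
      nlinarith
    have hstep := scalar_step hMnn hdiff
    have hsplit : ∑ c, m' c * thr k τ c * (tailS k m m' (k c)) ^ 2
        = ∑ c, m' c * thr k (τ + 1) c * (tailS k m m' (k c)) ^ 2
          + M * (tailS k m m' τ) ^ 2 := by
      rw [hMdef, Finset.sum_mul, ← Finset.sum_add_distrib]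
      refine Finset.sum_congr rfl fun c _ => ?_
      rw [hthr c]
      by_cases h : k c = τ
      · simp [h]; ring
      · simp [h]
    rw [hsplit]
    linarith

lemma cvm_pos (k : S → ℕ) (m m' : S → ℝ) (hm : ∀ c, 0 ≤ m c) (hm' : ∀ c, 0 ≤ m' c) (τ : ℕ) :
    (max (tailS k m m' τ) 0) ^ 3 ≤ 3 * ∑ c, m' c * (tailS k m m' (k c)) ^ 2 := by
  obtain ⟨N, hN⟩ : ∃ N, ∀ c, k c < N := by
    refine ⟨(Finset.univ.sup k) + 1, fun c => ?_⟩
    have : k c ≤ Finset.univ.sup k := Finset.le_sup (f := k) (Finset.mem_univ c)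
    omega
  refine (cvm_pos_aux k m m' hm hm' N hN N τ (by omega)).trans ?_
  have : ∑ c, m' c * thr k τ c * (tailS k m m' (k c)) ^ 2
      ≤ ∑ c, m' c * (tailS k m m' (k c)) ^ 2 := by
    refine Finset.sum_le_sum fun c _ => ?_
    have h1 := thr_le_one k τ c
    have h2 : m' c * thr k τ c ≤ m' c * 1 := mul_le_mul_of_nonneg_left h1 (hm' c)
    have h3 := mul_le_mul_of_nonneg_right h2 (sq_nonneg (tailS k m m' (k c)))
    simpa using h3
  linarith

lemma tailS_swap (k : S → ℕ) (m m' : S → ℝ) (τ : ℕ) : tailS k m' m τ = - tailS k m m' τ := by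
  unfold tailS
  rw [← Finset.sum_neg_distrib]
  exact Finset.sum_congr rfl fun c _ => by ring

/-- The discrete Cramer von Mises inequality. -/
lemma cvm_abs (k : S → ℕ) (m m' : S → ℝ) (hm : ∀ c, 0 ≤ m c) (hm' : ∀ c, 0 ≤ m' c) (τ : ℕ) :
    |tailS k m m' τ| ^ 3 ≤ 3 * ∑ c, (m c + m' c) * (tailS k m m' (k c)) ^ 2 := by
  have hs : ∑ c, (m c + m' c) * (tailS k m m' (k c)) ^ 2
      = ∑ c, m c * (tailS k m m' (k c)) ^ 2 + ∑ c, m' c * (tailS k m m' (k c)) ^ 2 := by
    rw [← Finset.sum_add_distrib]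
    exact Finset.sum_congr rfl fun c _ => by ring
  have h1 : 0 ≤ ∑ c, m c * (tailS k m m' (k c)) ^ 2 :=
    Finset.sum_nonneg fun c _ => mul_nonneg (hm c) (sq_nonneg _)
  have h2 : 0 ≤ ∑ c, m' c * (tailS k m m' (k c)) ^ 2 :=
    Finset.sum_nonneg fun c _ => mul_nonneg (hm' c) (sq_nonneg _)
  rw [hs]
  by_cases h : 0 ≤ tailS k m m' τ
  · have := cvm_pos k m m' hm hm' τ
    rw [max_eq_left h] at this
    rw [abs_of_nonneg h]
    linarith
  · push Not at h
    have := cvm_pos k m' m hm' hm τ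
    rw [tailS_swap k m m' τ] at this
    rw [max_eq_left (by linarith)] at this
    have e : ∑ c, m c * (tailS k m' m (k c)) ^ 2 = ∑ c, m c * (tailS k m m' (k c)) ^ 2 := by
      refine Finset.sum_congr rfl fun c _ => ?_
      rw [tailS_swap k m m' (k c)]
      ring
    rw [e] at this
    rw [abs_of_neg h]
    linarith

end Abstract

namespace Chain

variable {S : Type} [Fintype S] [DecidableEq S] (C : Chain S)

/-- Occupation weight. -/
def occ (t : ℕ) (z c : S) : ℝ := ∑ r ∈ range t, (C.P ^ r) z c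

lemma occ_nonneg (t : ℕ) (z c : S) : 0 ≤ C.occ t z c :=
  Finset.sum_nonneg fun r _ => C.pow_nonneg' r z c

/-- The Green difference of a threshold along an edge. -/
def Hh (k : S → ℕ) (t : ℕ) (x y : S) (τ : ℕ) : ℝ :=
  ∑ s ∈ range t, (C.av s (thr k τ) y - C.av s (thr k τ) x)

lemma Hh_eq_tail (k : S → ℕ) (t : ℕ) (x y : S) (τ : ℕ) :
    C.Hh k t x y τ = tailS k (C.occ t x) (C.occ t y) τ := by
  unfold Hh tailS occ av
  simp only [Finset.sum_sub_distrib, sub_mul, Finset.sum_mul]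
  rw [Finset.sum_comm]
  congr 1
  rw [Finset.sum_comm]

lemma Hh_swap (k : S → ℕ) (t : ℕ) (x y : S) (τ : ℕ) : C.Hh k t y x τ = - C.Hh k t x y τ := by
  unfold Hh
  rw [← Finset.sum_neg_distrib]
  exact Finset.sum_congr rfl fun s _ => by ring

/-- Gamma term of the Cramer von Mises inequality along an edge. -/
def Gam (k : S → ℕ) (t : ℕ) (x y : S) : ℝ :=
  ∑ c, (C.occ t x c + C.occ t y c) * (C.Hh k t x y (k c)) ^ 2

lemma Gam_nonneg (k : S → ℕ) (t : ℕ) (x y : S) : 0 ≤ C.Gam k t x y :=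
  Finset.sum_nonneg fun c _ =>
    mul_nonneg (add_nonneg (C.occ_nonneg t x c) (C.occ_nonneg t y c)) (sq_nonneg _)

lemma Hh_cube_le (k : S → ℕ) (t : ℕ) (x y : S) (τ : ℕ) :
    |C.Hh k t x y τ| ^ 3 ≤ 3 * C.Gam k t x y := by
  have := cvm_abs k (C.occ t x) (C.occ t y) (C.occ_nonneg t x) (C.occ_nonneg t y) τ
  rw [← Hh_eq_tail] at this
  refine this.trans (le_of_eq ?_)
  unfold Gam
  congr 1
  refine Finset.sum_congr rfl fun c _ => ?_
  rw [Hh_eq_tail]

lemma Hh_sq_le (k : S → ℕ) (t : ℕ) (x y : S) (τ : ℕ) :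
    (C.Hh k t x y τ) ^ 2
      ≤ t * ∑ s ∈ range t, (C.av s (thr k τ) y - C.av s (thr k τ) x) ^ 2 := by
  have := @sq_sum_le_card_mul_sum_sq ℕ ℝ _ _ _ _ (range t)
    (fun s => C.av s (thr k τ) y - C.av s (thr k τ) x)
  simpa [Hh] using this

/-- The energy along the edges weighted by occupation, for a fixed target `c`. -/
lemma edge_occ_bound (hlazy : ∀ w, 1 / 2 ≤ C.P w w) (k : S → ℕ) (t : ℕ) (c : S) :
    ∑ x, ∑ y, C.pi x * C.P x y * (C.occ t x c * (C.Hh k t x y (k c)) ^ 2)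
      ≤ C.pi c * (6 * t ^ 2) := by
  set g : S → ℝ := thr k (k c) with hg
  have hsq : ∀ w, (g w) ^ 2 ≤ 1 := fun w => thr_sq_le _ _ _
  have hbudget := C.energy_square hlazy hsq t c
  have step1 : ∀ x y, C.pi x * C.P x y * (C.occ t x c * (C.Hh k t x y (k c)) ^ 2)
      ≤ C.pi x * C.P x y * (C.occ t x c *
          (t * ∑ s ∈ range t, (C.av s g y - C.av s g x) ^ 2)) := by
    intro x y
    refine mul_le_mul_of_nonneg_left ?_ (mul_nonneg (C.pi_nonneg x) (C.P_nonneg x y))
    exact mul_le_mul_of_nonneg_left (C.Hh_sq_le k t x y (k c)) (C.occ_nonneg t x c)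
  have step2 : ∑ x, ∑ y, C.pi x * C.P x y * (C.occ t x c *
          (t * ∑ s ∈ range t, (C.av s g y - C.av s g x) ^ 2))
      = t * (C.pi c * ∑ r ∈ range t, ∑ s ∈ range t, C.av r (C.En (C.av s g)) c) := by
    have e3 : ∀ x, ∑ y, C.pi x * C.P x y * (C.occ t x c *
          (t * ∑ s ∈ range t, (C.av s g y - C.av s g x) ^ 2))
        = t * ∑ r ∈ range t, ∑ s ∈ range t, (C.pi x * (C.P ^ r) x c) * C.En (C.av s g) x := by
      intro x
      have h1 : ∀ y, C.pi x * C.P x y * (C.occ t x c *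
            (t * ∑ s ∈ range t, (C.av s g y - C.av s g x) ^ 2))
          = t * (C.pi x * C.occ t x c) *
              ∑ s ∈ range t, C.P x y * (C.av s g y - C.av s g x) ^ 2 := by
        intro y
        rw [← Finset.mul_sum]
        ring
      simp only [h1]
      rw [← Finset.mul_sum, Finset.sum_comm]
      have h2 : ∀ s, ∑ y, C.P x y * (C.av s g y - C.av s g x) ^ 2 = C.En (C.av s g) x :=
        fun s => rfl
      simp only [h2]
      unfold occ
      have h3 : ∑ r ∈ range t, ∑ s ∈ range t, C.pi x * (C.P ^ r) x c * C.En (C.av s g) x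
          = (C.pi x * ∑ r ∈ range t, (C.P ^ r) x c) * ∑ s ∈ range t, C.En (C.av s g) x := by
        rw [Finset.mul_sum (a := C.pi x), Finset.sum_mul_sum]
      rw [h3]
      ring
    simp only [e3]
    rw [← Finset.mul_sum]
    congr 1
    rw [Finset.sum_comm, Finset.mul_sum]
    refine Finset.sum_congr rfl fun r _ => ?_
    rw [Finset.sum_comm, Finset.mul_sum]
    refine Finset.sum_congr rfl fun s _ => ?_
    unfold av
    rw [Finset.mul_sum]
    refine Finset.sum_congr rfl fun x _ => ?_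
    rw [C.pow_rev r x c]
    ring
  calc ∑ x, ∑ y, C.pi x * C.P x y * (C.occ t x c * (C.Hh k t x y (k c)) ^ 2)
      ≤ ∑ x, ∑ y, C.pi x * C.P x y * (C.occ t x c *
          (t * ∑ s ∈ range t, (C.av s g y - C.av s g x) ^ 2)) :=
        Finset.sum_le_sum fun x _ => Finset.sum_le_sum fun y _ => step1 x y
    _ = t * (C.pi c * ∑ r ∈ range t, ∑ s ∈ range t, C.av r (C.En (C.av s g)) c) := step2
    _ ≤ t * (C.pi c * (6 * t)) := by
        refine mul_le_mul_of_nonneg_left ?_ (Nat.cast_nonneg t)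
        exact mul_le_mul_of_nonneg_left hbudget (C.pi_nonneg c)
    _ = C.pi c * (6 * t ^ 2) := by ring

/-- The full edge average of the Gamma term. -/
lemma edge_Gam_bound (hlazy : ∀ w, 1 / 2 ≤ C.P w w) (k : S → ℕ) (t : ℕ) :
    ∑ x, ∑ y, C.pi x * C.P x y * C.Gam k t x y ≤ 12 * t ^ 2 := by
  set T1 := ∑ x, ∑ y, C.pi x * C.P x y * ∑ c, C.occ t x c * (C.Hh k t x y (k c)) ^ 2 with hT1
  set T2 := ∑ x, ∑ y, C.pi x * C.P x y * ∑ c, C.occ t y c * (C.Hh k t x y (k c)) ^ 2 with hT2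
  have hsplit : ∑ x, ∑ y, C.pi x * C.P x y * C.Gam k t x y = T1 + T2 := by
    rw [hT1, hT2, ← Finset.sum_add_distrib]
    refine Finset.sum_congr rfl fun x _ => ?_
    rw [← Finset.sum_add_distrib]
    refine Finset.sum_congr rfl fun y _ => ?_
    rw [← mul_add, ← Finset.sum_add_distrib]
    congr 1
    refine Finset.sum_congr rfl fun c _ => ?_
    ring
  have hswap : T2 = T1 := by
    rw [hT1, hT2, Finset.sum_comm]
    refine Finset.sum_congr rfl fun x _ => Finset.sum_congr rfl fun y _ => ?_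
    rw [C.rev y x]
    congr 1
    refine Finset.sum_congr rfl fun c _ => ?_
    rw [C.Hh_swap k t y x (k c)]
    ring
  have h1 : T1 ≤ 6 * t ^ 2 := by
    have e : T1 = ∑ c, ∑ x, ∑ y, C.pi x * C.P x y *
        (C.occ t x c * (C.Hh k t x y (k c)) ^ 2) := by
      rw [hT1, Finset.sum_comm]
      have : ∀ x, ∑ y, C.pi x * C.P x y * ∑ c, C.occ t x c * (C.Hh k t x y (k c)) ^ 2
          = ∑ c, ∑ y, C.pi x * C.P x y * (C.occ t x c * (C.Hh k t x y (k c)) ^ 2) := by
        intro x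
        rw [Finset.sum_comm]
        exact Finset.sum_congr rfl fun y _ => Finset.mul_sum _ _ _
      rw [Finset.sum_comm]
      simp only [this]
      rw [Finset.sum_comm]
    rw [e]
    calc ∑ c, ∑ x, ∑ y, C.pi x * C.P x y * (C.occ t x c * (C.Hh k t x y (k c)) ^ 2)
        ≤ ∑ c, C.pi c * (6 * t ^ 2) :=
          Finset.sum_le_sum fun c _ => C.edge_occ_bound hlazy k t c
      _ = 6 * t ^ 2 := by rw [← Finset.sum_mul, C.pi_sum, one_mul]
  rw [hsplit, hswap]
  linarith

end Chain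

end Vale.Agent.Lib.P125
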