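import Mathlib

/-!
The norm used in the statement: the target norm of the summing operator.
-/

namespace Vale.Agent.Lib.P125

open Finset

/-- The norm of the image of `v = (v_0, ..., v_{N-1})` under the summing operator
`ℓ¹_N → ℓ^∞_{N+1}`: the largest absolute value of a initial sum `v_0 + ... + v_{k-1}`, `k ≤ N`. -/
noncomputable def summingNorm (N : ℕ) (v : ℕ → ℝ) : ℝ :=
  (range (N + 1)).sup' ⟨0, Finset.mem_range.mpr (Nat.succ_pos N)⟩
    (fun k => |∑ i ∈ range k, v i|)

end Vale.Agent.Lib.P125
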