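import Vale.Agent.Lib.P125.General
import Vale.Agent.Lib.P125.Defs

/-!
The final form of the third moment bound, and the corresponding nontrivial exponent.
-/

namespace Vale.Agent.Lib.P125

open Finset Matrix

variable {S : Type} [Fintype S] [DecidableEq S]

lemma Dd_eq_summingNorm (f : S → ℕ → ℝ) (N : ℕ) (x y : S) :
    Chain.Dd (fun i z => f z i) N x y = summingNorm N (fun i => f y i - f x i) := by
  unfold Chain.Dd summingNorm
  congr 1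
  funext k
  unfold Gs
  rw [Finset.sum_sub_distrib]

lemma psi83_eq (t : ℕ) : Chain.psi83 t = (t : ℝ) ^ (8 / 3 : ℝ) := by
  unfold Chain.psi83 Chain.psi53 Chain.tp
  have h : (8 / 3 : ℝ) = 2 + 2 / 3 := by norm_num
  rw [h, Real.rpow_add' (Nat.cast_nonneg t) (by norm_num)]
  have : (t : ℝ) ^ (2 : ℝ) = (t : ℝ) ^ 2 := by
    rw [← Real.rpow_natCast]
    norm_num
  rw [this]
  ring

/-- The main statement in unpacked form. -/
theorem main_bounds (π : S → ℝ) (P : Matrix S S ℝ)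
    (hπ : ∀ x, 0 ≤ π x) (hπ1 : ∑ x, π x = 1)
    (hP : ∀ x y, 0 ≤ P x y) (hP1 : ∀ x, ∑ y, P x y = 1)
    (hrev : ∀ x y, π x * P x y = π y * P y x)
    (N : ℕ) (f : S → ℕ → ℝ)
    (hf : ∀ x y, P x y ≠ 0 → ∑ i ∈ range N, |f y i - f x i| ≤ 1) (t : ℕ) :
    ∑ x, ∑ y, π x * (P ^ t) x y * (summingNorm N (fun i => f y i - f x i)) ^ 3
        ≤ 84386 * (t : ℝ) ^ (8 / 3 : ℝ) ∧
    ∑ x, ∑ y, π x * (P ^ t) x y * (summingNorm N (fun i => f y i - f x i)) ^ (9 / 8 : ℝ)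
        ≤ 71 * t := by
  let C : Chain S := ⟨π, P, hπ, hP, hP1, hπ1, hrev⟩
  have hL : C.Lip (fun i z => f z i) N := hf
  have hmain := C.third_moment_general hL t
  rw [psi83_eq] at hmain
  have hcube : ∑ x, ∑ y, π x * (P ^ t) x y * (summingNorm N (fun i => f y i - f x i)) ^ 3
      ≤ 84386 * (t : ℝ) ^ (8 / 3 : ℝ) := by
    refine le_trans (le_of_eq ?_) hmain
    unfold Chain.Ld
    refine Finset.sum_congr rfl fun x _ => Finset.sum_congr rfl fun y _ => ?_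
    rw [Dd_eq_summingNorm]
  refine ⟨hcube, ?_⟩
  -- Hölder
  set Dn : S → S → ℝ := fun x y => summingNorm N (fun i => f y i - f x i) with hDn
  have hDnn : ∀ x y, 0 ≤ Dn x y := by
    intro x y
    simp only [hDn]
    rw [← Dd_eq_summingNorm]
    exact Chain.Dd_nonneg _ _ _ _
  have hsum1 : ∑ p : S × S, π p.1 * (P ^ t) p.1 p.2 = 1 := by
    rw [Fintype.sum_prod_type]
    have : ∀ x, ∑ y, π x * (P ^ t) x y = π x := by
      intro x
      rw [← Finset.mul_sum]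
      have := C.pow_sum t x
      have e : ∑ y, (P ^ t) x y = 1 := this
      rw [e, mul_one]
    simp only [this]
    exact hπ1
  have hw : ∀ p ∈ (Finset.univ : Finset (S × S)), 0 ≤ π p.1 * (P ^ t) p.1 p.2 :=
    fun p _ => mul_nonneg (hπ _) (C.pow_nonneg' t _ _)
  have hjens := Real.rpow_arith_mean_le_arith_mean_rpow (Finset.univ : Finset (S × S))
    (fun p => π p.1 * (P ^ t) p.1 p.2) (fun p => (Dn p.1 p.2) ^ (9 / 8 : ℝ)) hw hsum1
    (fun p _ => Real.rpow_nonneg (hDnn _ _) _) (p := 8 / 3) (by norm_num)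
  set A := ∑ x, ∑ y, π x * (P ^ t) x y * (Dn x y) ^ (9 / 8 : ℝ) with hA
  have hA' : ∑ p : S × S, π p.1 * (P ^ t) p.1 p.2 * (Dn p.1 p.2) ^ (9 / 8 : ℝ) = A := by
    rw [Fintype.sum_prod_type]
  rw [hA'] at hjens
  have hpow : ∀ x y, ((Dn x y) ^ (9 / 8 : ℝ)) ^ (8 / 3 : ℝ) = (Dn x y) ^ 3 := by
    intro x y
    rw [← Real.rpow_mul (hDnn x y), ← Real.rpow_natCast]
    norm_num
  have hB : ∑ p : S × S, π p.1 * (P ^ t) p.1 p.2 * ((Dn p.1 p.2) ^ (9 / 8 : ℝ)) ^ (8 / 3 : ℝ)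
      = ∑ x, ∑ y, π x * (P ^ t) x y * (Dn x y) ^ 3 := by
    rw [Fintype.sum_prod_type]
    simp only [hpow]
  rw [hB] at hjens
  have hAnn : 0 ≤ A := Finset.sum_nonneg fun x _ => Finset.sum_nonneg fun y _ =>
    mul_nonneg (mul_nonneg (hπ x) (C.pow_nonneg' t x y)) (Real.rpow_nonneg (hDnn x y) _)
  have ht : (0 : ℝ) ≤ (t : ℝ) := Nat.cast_nonneg t
  have h71 : (84386 : ℝ) ≤ (71 : ℝ) ^ (8 / 3 : ℝ) := by
    have h0 : (0 : ℝ) ≤ (71 : ℝ) ^ (8 / 3 : ℝ) := by positivity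
    have h1 : ((71 : ℝ) ^ (8 / 3 : ℝ)) ^ 3 = (71 : ℝ) ^ 8 := by
      rw [← Real.rpow_natCast, ← Real.rpow_mul (by norm_num), ← Real.rpow_natCast]
      norm_num
    have h2 : (84386 : ℝ) ^ 3 ≤ ((71 : ℝ) ^ (8 / 3 : ℝ)) ^ 3 := by
      rw [h1]
      norm_num
    exact le_of_pow_le_pow_left₀ (by norm_num) h0 h2
  have hfinal : A ^ (8 / 3 : ℝ) ≤ (71 * (t : ℝ)) ^ (8 / 3 : ℝ) := by
    rw [Real.mul_rpow (by norm_num) ht]
    calc A ^ (8 / 3 : ℝ) ≤ ∑ x, ∑ y, π x * (P ^ t) x y * (Dn x y) ^ 3 := hjens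
      _ ≤ 84386 * (t : ℝ) ^ (8 / 3 : ℝ) := hcube
      _ ≤ (71 : ℝ) ^ (8 / 3 : ℝ) * (t : ℝ) ^ (8 / 3 : ℝ) :=
          mul_le_mul_of_nonneg_right h71 (Real.rpow_nonneg ht _)
  exact (Real.rpow_le_rpow_iff hAnn (by positivity) (by norm_num)).mp hfinal

end Vale.Agent.Lib.P125
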