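import Vale.Agent.Lib.P125.Strong

/-!
From lazy chains to arbitrary stationary reversible chains, by binomial averaging.
-/

namespace Vale.Agent.Lib.P125

open Finset Matrix

/-- Binomial weights at one half. -/
noncomputable def bw (T m : ℕ) : ℝ := (1 / 2 : ℝ) ^ m * (1 / 2 : ℝ) ^ (T - m) * (T.choose m : ℝ)

lemma bw_nonneg (T m : ℕ) : 0 ≤ bw T m := by
  unfold bw
  positivity

lemma bw_sum (T : ℕ) : ∑ m ∈ range (T + 1), bw T m = 1 := by
  have := add_pow (1 / 2 : ℝ) (1 / 2 : ℝ) T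
  unfold bw
  rw [← this]
  norm_num

/-- Variance of the symmetric binomial distribution. -/
lemma bw_variance (T : ℕ) :
    ∑ m ∈ range (T + 1), ((T : ℝ) / 2 - m) ^ 2 * bw T m = (T : ℝ) / 4 := by
  have h := congrArg (Polynomial.eval (1 / 2 : ℝ)) (bernsteinPolynomial.variance ℝ T)
  simp only [Polynomial.eval_finset_sum, Polynomial.eval_mul, Polynomial.eval_pow,
    Polynomial.eval_sub, Polynomial.eval_smul, Polynomial.eval_X, Polynomial.eval_natCast,
    Polynomial.eval_one, bernsteinPolynomial, nsmul_eq_mul] at h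
  have e : ∀ m ∈ range (T + 1), ((T : ℝ) / 2 - m) ^ 2 * bw T m
      = ((T : ℝ) * (1 / 2) - m) ^ 2 * ((T.choose m : ℝ) * (1 / 2) ^ m * (1 - 1 / 2) ^ (T - m)) := by
    intro m _
    unfold bw
    norm_num
    ring
  rw [Finset.sum_congr rfl e, h]
  norm_num
  ring

namespace Chain

variable {S : Type} [Fintype S] [DecidableEq S] (C : Chain S)

/-- The lazy version of a chain. -/
noncomputable def lazy : Chain S where
  pi := C.pi
  P := (1 / 2 : ℝ) • C.P + (1 / 2 : ℝ) • (1 : Matrix S S ℝ)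
  pi_nonneg := C.pi_nonneg
  P_nonneg := by
    intro x y
    simp only [Matrix.add_apply, Matrix.smul_apply, smul_eq_mul, Matrix.one_apply]
    have h := C.P_nonneg x y
    split_ifs <;> linarith
  P_sum := by
    intro x
    simp only [Matrix.add_apply, Matrix.smul_apply, smul_eq_mul, Finset.sum_add_distrib,
      ← Finset.mul_sum, C.P_sum, Matrix.one_apply, Finset.sum_ite_eq, Finset.mem_univ, if_true]
    norm_num
  pi_sum := C.pi_sum
  rev := by
    intro x y
    simp only [Matrix.add_apply, Matrix.smul_apply, smul_eq_mul, Matrix.one_apply]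
    have h := C.rev x y
    by_cases hxy : x = y
    · subst hxy
      simp
    · have hyx : ¬ y = x := fun e => hxy e.symm
      simp only [hxy, hyx, if_false]
      linarith

lemma lazy_holding (x : S) : 1 / 2 ≤ C.lazy.P x x := by
  simp only [lazy, Matrix.add_apply, Matrix.smul_apply, smul_eq_mul, Matrix.one_apply, if_true]
  have h := C.P_nonneg x x
  linarith

lemma lazy_ne_zero {x y : S} (h : C.lazy.P x y ≠ 0) : x = y ∨ C.P x y ≠ 0 := by
  by_contra hcon
  push Not at hcon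
  obtain ⟨h1, h2⟩ := hcon
  apply h
  simp [lazy, Matrix.add_apply, Matrix.smul_apply, Matrix.one_apply, h1, h2]

lemma lazy_Lip {a : ℕ → S → ℝ} {N : ℕ} (hL : C.Lip a N) : C.lazy.Lip a N := by
  intro x y h
  rcases C.lazy_ne_zero h with rfl | h'
  · simp
  · exact hL x y h'

/-- Binomial expansion of the powers of the lazy chain. -/
lemma lazy_pow (T : ℕ) (x y : S) :
    (C.lazy.P ^ T) x y = ∑ m ∈ range (T + 1), bw T m * (C.P ^ m) x y := by
  have hc : Commute ((1 / 2 : ℝ) • C.P) ((1 / 2 : ℝ) • (1 : Matrix S S ℝ)) :=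
    ((Commute.one_right C.P).smul_right _).smul_left _
  have e : C.lazy.P = (1 / 2 : ℝ) • C.P + (1 / 2 : ℝ) • (1 : Matrix S S ℝ) := rfl
  rw [e, hc.add_pow, Matrix.sum_apply]
  refine Finset.sum_congr rfl fun m _ => ?_
  rw [smul_pow, smul_pow, one_pow]
  have e2 : (1 / 2 : ℝ) ^ m • C.P ^ m * (1 / 2 : ℝ) ^ (T - m) • (1 : Matrix S S ℝ)
      * ((T.choose m : ℕ) : Matrix S S ℝ)
      = (bw T m) • C.P ^ m := by
    have e3 : ((T.choose m : ℕ) : Matrix S S ℝ) = ((T.choose m : ℕ) : ℝ) • (1 : Matrix S S ℝ) := by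
      rw [Nat.cast_smul_eq_nsmul, nsmul_eq_mul, mul_one]
    rw [e3, smul_mul_smul_comm, mul_one, smul_mul_smul_comm, mul_one]
    rfl
  rw [e2, Matrix.smul_apply, smul_eq_mul]

/-- The expected cube of the maximal initial sum after `t` steps. -/
noncomputable def Ld (a : ℕ → S → ℝ) (N t : ℕ) : ℝ :=
  ∑ x, ∑ y, C.pi x * (C.P ^ t) x y * (Dd a N x y) ^ 3

lemma Ld_lazy (a : ℕ → S → ℝ) (N T : ℕ) :
    C.lazy.Ld a N T = ∑ m ∈ range (T + 1), bw T m * C.Ld a N m := by
  unfold Ld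
  simp only [Finset.mul_sum]
  calc ∑ x, ∑ y, C.lazy.pi x * (C.lazy.P ^ T) x y * (Dd a N x y) ^ 3
      = ∑ x, ∑ y, ∑ m ∈ range (T + 1), bw T m * (C.pi x * (C.P ^ m) x y * (Dd a N x y) ^ 3) := by
        refine Finset.sum_congr rfl fun x _ => Finset.sum_congr rfl fun y _ => ?_
        rw [C.lazy_pow, Finset.mul_sum, Finset.sum_mul]
        refine Finset.sum_congr rfl fun m _ => ?_
        have : C.lazy.pi x = C.pi x := rfl
        rw [this]
        ring
    _ = _ := by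
        rw [swap_out]

lemma Dd_symm (a : ℕ → S → ℝ) (N : ℕ) (x y : S) : Dd a N x y = Dd a N y x := by
  unfold Dd
  congr 1
  funext k
  rw [abs_sub_comm]

lemma Dd_triangle (a : ℕ → S → ℝ) (N : ℕ) (x u y : S) :
    Dd a N x y ≤ Dd a N x u + Dd a N u y := by
  refine Finset.sup'_le _ _ fun k hk => ?_
  have hk' : k ≤ N := by
    have := Finset.mem_range.mp hk
    omega
  have h1 := le_Dd a N x u hk'
  have h2 := le_Dd a N u y hk'
  have h3 : |Gs a k y - Gs a k x| ≤ |Gs a k u - Gs a k x| + |Gs a k y - Gs a k u| := by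
    have : Gs a k y - Gs a k x = (Gs a k u - Gs a k x) + (Gs a k y - Gs a k u) := by ring
    rw [this]
    exact abs_add_le _ _
  linarith

lemma Dd_cube_triangle (a : ℕ → S → ℝ) (N : ℕ) (x u y : S) :
    (Dd a N x y) ^ 3 ≤ 4 * ((Dd a N x u) ^ 3 + (Dd a N u y) ^ 3) := by
  have h1 := Dd_triangle a N x u y
  have h2 := Dd_nonneg a N x u
  have h3 := Dd_nonneg a N u y
  have h4 := Dd_nonneg a N x y
  have h5 : (Dd a N x y) ^ 3 ≤ (Dd a N x u + Dd a N u y) ^ 3 := pow_le_pow_left₀ h4 h1 3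
  have h6 : (Dd a N x u + Dd a N u y) ^ 3
      ≤ 4 * ((Dd a N x u) ^ 3 + (Dd a N u y) ^ 3) := by
    nlinarith [sq_nonneg (Dd a N x u - Dd a N u y), mul_nonneg h2 h3,
      mul_nonneg (add_nonneg h2 h3) (sq_nonneg (Dd a N x u - Dd a N u y))]
  linarith

/-- Triangle inequality for the cubes along the time axis, short middle time. -/
lemma Ld_triangle_le (a : ℕ → S → ℝ) (N j d : ℕ) :
    C.Ld a N (j + d) ≤ 4 * (C.Ld a N j + C.Ld a N d) := by
  unfold Ld
  have e1 : ∑ x, ∑ y, C.pi x * (C.P ^ (j + d)) x y * (Dd a N x y) ^ 3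
      = ∑ x, ∑ u, ∑ y, C.pi x * (C.P ^ j) x u * (C.P ^ d) u y * (Dd a N x y) ^ 3 := by
    refine Finset.sum_congr rfl fun x _ => ?_
    rw [Finset.sum_comm]
    refine Finset.sum_congr rfl fun y _ => ?_
    rw [C.pow_add_apply, Finset.mul_sum, Finset.sum_mul]
    refine Finset.sum_congr rfl fun u _ => ?_
    ring
  have h1 : ∀ x u y, C.pi x * (C.P ^ j) x u * (C.P ^ d) u y * (Dd a N x y) ^ 3
      ≤ C.pi x * (C.P ^ j) x u * (C.P ^ d) u y * (4 * ((Dd a N x u) ^ 3 + (Dd a N u y) ^ 3)) := by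
    intro x u y
    refine mul_le_mul_of_nonneg_left (Dd_cube_triangle a N x u y) ?_
    exact mul_nonneg (mul_nonneg (C.pi_nonneg x) (C.pow_nonneg' j x u)) (C.pow_nonneg' d u y)
  have e2 : ∑ x, ∑ u, ∑ y, C.pi x * (C.P ^ j) x u * (C.P ^ d) u y * (Dd a N x u) ^ 3
      = ∑ x, ∑ y, C.pi x * (C.P ^ j) x y * (Dd a N x y) ^ 3 := by
    refine Finset.sum_congr rfl fun x _ => Finset.sum_congr rfl fun u _ => ?_
    have : ∀ y, C.pi x * (C.P ^ j) x u * (C.P ^ d) u y * (Dd a N x u) ^ 3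
        = C.pi x * (C.P ^ j) x u * (Dd a N x u) ^ 3 * (C.P ^ d) u y := fun y => by ring
    simp only [this]
    rw [← Finset.mul_sum, C.pow_sum, mul_one]
  have e3 : ∑ x, ∑ u, ∑ y, C.pi x * (C.P ^ j) x u * (C.P ^ d) u y * (Dd a N u y) ^ 3
      = ∑ x, ∑ y, C.pi x * (C.P ^ d) x y * (Dd a N x y) ^ 3 := by
    rw [Finset.sum_comm]
    refine Finset.sum_congr rfl fun u _ => ?_
    rw [Finset.sum_comm]
    refine Finset.sum_congr rfl fun y _ => ?_
    have : ∀ x, C.pi x * (C.P ^ j) x u * (C.P ^ d) u y * (Dd a N u y) ^ 3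
        = (C.pi x * (C.P ^ j) x u) * ((C.P ^ d) u y * (Dd a N u y) ^ 3) := fun x => by ring
    simp only [this]
    rw [← Finset.sum_mul, C.pow_stationary]
    ring
  rw [e1, ← e2, ← e3]
  have e4 : 4 * (∑ x, ∑ u, ∑ y, C.pi x * (C.P ^ j) x u * (C.P ^ d) u y * (Dd a N x u) ^ 3
        + ∑ x, ∑ u, ∑ y, C.pi x * (C.P ^ j) x u * (C.P ^ d) u y * (Dd a N u y) ^ 3)
      = ∑ x, ∑ u, ∑ y, C.pi x * (C.P ^ j) x u * (C.P ^ d) u y *
          (4 * ((Dd a N x u) ^ 3 + (Dd a N u y) ^ 3)) := by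
    rw [← Finset.sum_add_distrib, Finset.mul_sum]
    refine Finset.sum_congr rfl fun x _ => ?_
    rw [← Finset.sum_add_distrib, Finset.mul_sum]
    refine Finset.sum_congr rfl fun u _ => ?_
    rw [← Finset.sum_add_distrib, Finset.mul_sum]
    refine Finset.sum_congr rfl fun y _ => ?_
    ring
  rw [e4]
  exact Finset.sum_le_sum fun x _ => Finset.sum_le_sum fun u _ =>
    Finset.sum_le_sum fun y _ => h1 x u y

/-- Triangle inequality for the cubes along the time axis, long middle time. -/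
lemma Ld_triangle_ge (a : ℕ → S → ℝ) (N t d : ℕ) :
    C.Ld a N t ≤ 4 * (C.Ld a N (t + d) + C.Ld a N d) := by
  unfold Ld
  have e1 : ∑ x, ∑ y, C.pi x * (C.P ^ t) x y * (Dd a N x y) ^ 3
      = ∑ x, ∑ y, ∑ w, C.pi x * (C.P ^ t) x y * (C.P ^ d) y w * (Dd a N x y) ^ 3 := by
    refine Finset.sum_congr rfl fun x _ => Finset.sum_congr rfl fun y _ => ?_
    have : ∀ w, C.pi x * (C.P ^ t) x y * (C.P ^ d) y w * (Dd a N x y) ^ 3
        = C.pi x * (C.P ^ t) x y * (Dd a N x y) ^ 3 * (C.P ^ d) y w := fun w => by ring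
    simp only [this]
    rw [← Finset.mul_sum, C.pow_sum, mul_one]
  have h1 : ∀ x y w, C.pi x * (C.P ^ t) x y * (C.P ^ d) y w * (Dd a N x y) ^ 3
      ≤ C.pi x * (C.P ^ t) x y * (C.P ^ d) y w * (4 * ((Dd a N x w) ^ 3 + (Dd a N y w) ^ 3)) := by
    intro x y w
    refine mul_le_mul_of_nonneg_left ?_ ?_
    · have := Dd_cube_triangle a N x w y
      rw [Dd_symm a N w y] at this
      exact this
    · exact mul_nonneg (mul_nonneg (C.pi_nonneg x) (C.pow_nonneg' t x y)) (C.pow_nonneg' d y w)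
  have e2 : ∑ x, ∑ y, ∑ w, C.pi x * (C.P ^ t) x y * (C.P ^ d) y w * (Dd a N x w) ^ 3
      = ∑ x, ∑ w, C.pi x * (C.P ^ (t + d)) x w * (Dd a N x w) ^ 3 := by
    refine Finset.sum_congr rfl fun x _ => ?_
    rw [Finset.sum_comm]
    refine Finset.sum_congr rfl fun w _ => ?_
    rw [C.pow_add_apply, Finset.mul_sum, Finset.sum_mul]
    refine Finset.sum_congr rfl fun u _ => ?_
    ring
  have e3 : ∑ x, ∑ y, ∑ w, C.pi x * (C.P ^ t) x y * (C.P ^ d) y w * (Dd a N y w) ^ 3
      = ∑ y, ∑ w, C.pi y * (C.P ^ d) y w * (Dd a N y w) ^ 3 := by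
    rw [Finset.sum_comm]
    refine Finset.sum_congr rfl fun y _ => ?_
    rw [Finset.sum_comm]
    refine Finset.sum_congr rfl fun w _ => ?_
    have : ∀ x, C.pi x * (C.P ^ t) x y * (C.P ^ d) y w * (Dd a N y w) ^ 3
        = (C.pi x * (C.P ^ t) x y) * ((C.P ^ d) y w * (Dd a N y w) ^ 3) := fun x => by ring
    simp only [this]
    rw [← Finset.sum_mul, C.pow_stationary]
    ring
  rw [e1, ← e2, ← e3]
  have e4 : 4 * (∑ x, ∑ y, ∑ w, C.pi x * (C.P ^ t) x y * (C.P ^ d) y w * (Dd a N x w) ^ 3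
        + ∑ x, ∑ y, ∑ w, C.pi x * (C.P ^ t) x y * (C.P ^ d) y w * (Dd a N y w) ^ 3)
      = ∑ x, ∑ y, ∑ w, C.pi x * (C.P ^ t) x y * (C.P ^ d) y w *
          (4 * ((Dd a N x w) ^ 3 + (Dd a N y w) ^ 3)) := by
    rw [← Finset.sum_add_distrib, Finset.mul_sum]
    refine Finset.sum_congr rfl fun x _ => ?_
    rw [← Finset.sum_add_distrib, Finset.mul_sum]
    refine Finset.sum_congr rfl fun u _ => ?_
    rw [← Finset.sum_add_distrib, Finset.mul_sum]
    refine Finset.sum_congr rfl fun y _ => ?_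
    ring
  rw [e4]
  exact Finset.sum_le_sum fun x _ => Finset.sum_le_sum fun u _ =>
    Finset.sum_le_sum fun y _ => h1 x u y

/-- The trivial bound on the cube. -/
lemma Ld_trivial {a : ℕ → S → ℝ} {N : ℕ} (hL : C.Lip a N) (j : ℕ) :
    C.Ld a N j ≤ (j : ℝ) ^ 3 := by
  unfold Ld
  have h1 : ∀ x y, C.pi x * (C.P ^ j) x y * (Dd a N x y) ^ 3
      ≤ C.pi x * (C.P ^ j) x y * (j : ℝ) ^ 3 := by
    intro x y
    by_cases h : (C.P ^ j) x y = 0
    · simp [h]
    · refine mul_le_mul_of_nonneg_left ?_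
        (mul_nonneg (C.pi_nonneg x) (C.pow_nonneg' j x y))
      refine pow_le_pow_left₀ (Dd_nonneg a N x y) ?_ 3
      refine Finset.sup'_le _ _ fun k hk => ?_
      have hk' : k ≤ N := by
        have := Finset.mem_range.mp hk
        omega
      exact C.Gs_path hL hk' j h
  calc ∑ x, ∑ y, C.pi x * (C.P ^ j) x y * (Dd a N x y) ^ 3
      ≤ ∑ x, ∑ y, C.pi x * (C.P ^ j) x y * (j : ℝ) ^ 3 :=
        Finset.sum_le_sum fun x _ => Finset.sum_le_sum fun y _ => h1 x y
    _ = (j : ℝ) ^ 3 := by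
        simp only [← Finset.sum_mul, ← Finset.mul_sum, C.pow_sum, mul_one]
        rw [C.pi_sum, one_mul]

/-- Comparison of a fixed time with the binomially averaged time. -/
lemma Ld_compare {a : ℕ → S → ℝ} {N : ℕ} (hL : C.Lip a N) (t : ℕ) :
    C.Ld a N t ≤ 4 * C.lazy.Ld a N (2 * t) + 2 * (t : ℝ) ^ 2 := by
  have hpt : ∀ m ∈ range (2 * t + 1), C.Ld a N t
      ≤ 4 * C.Ld a N m + 4 * ((t : ℝ) * ((t : ℝ) - m) ^ 2) := by
    intro m hm
    have hm' : m ≤ 2 * t := by
      have := Finset.mem_range.mp hm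
      omega
    by_cases hmt : m ≤ t
    · obtain ⟨d, rfl⟩ := Nat.exists_eq_add_of_le hmt
      have h1 := C.Ld_triangle_le a N m d
      have h2 := C.Ld_trivial hL d
      have h3 : (d : ℝ) ^ 3 ≤ ((m + d : ℕ) : ℝ) * (((m + d : ℕ) : ℝ) - m) ^ 2 := by
        push_cast
        have : ((m : ℝ) + d - m) = d := by ring
        rw [this]
        have hm0 : (0 : ℝ) ≤ m := Nat.cast_nonneg m
        have hd0 : (0 : ℝ) ≤ d := Nat.cast_nonneg d
        have : (d : ℝ) ^ 3 = d * d ^ 2 := by ring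
        rw [this]
        exact mul_le_mul_of_nonneg_right (by linarith) (sq_nonneg _)
      linarith
    · push Not at hmt
      obtain ⟨d, rfl⟩ := Nat.exists_eq_add_of_le hmt.le
      have h1 := C.Ld_triangle_ge a N t d
      have h2 := C.Ld_trivial hL d
      have hd : d ≤ t := by omega
      have h3 : (d : ℝ) ^ 3 ≤ (t : ℝ) * ((t : ℝ) - ((t + d : ℕ) : ℝ)) ^ 2 := by
        push_cast
        have : ((t : ℝ) - (t + d)) ^ 2 = (d : ℝ) ^ 2 := by ring
        rw [this]
        have hd' : (d : ℝ) ≤ t := Nat.cast_le.mpr hd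
        have : (d : ℝ) ^ 3 = d * d ^ 2 := by ring
        rw [this]
        exact mul_le_mul_of_nonneg_right hd' (sq_nonneg _)
      linarith
  have hsum := bw_sum (2 * t)
  have hvar := bw_variance (2 * t)
  have e1 : C.Ld a N t = ∑ m ∈ range (2 * t + 1), bw (2 * t) m * C.Ld a N t := by
    rw [← Finset.sum_mul, hsum, one_mul]
  calc C.Ld a N t = ∑ m ∈ range (2 * t + 1), bw (2 * t) m * C.Ld a N t := e1
    _ ≤ ∑ m ∈ range (2 * t + 1), bw (2 * t) m *
          (4 * C.Ld a N m + 4 * ((t : ℝ) * ((t : ℝ) - m) ^ 2)) :=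
        Finset.sum_le_sum fun m hm =>
          mul_le_mul_of_nonneg_left (hpt m hm) (bw_nonneg _ _)
    _ = 4 * ∑ m ∈ range (2 * t + 1), bw (2 * t) m * C.Ld a N m
          + 4 * (t : ℝ) * ∑ m ∈ range (2 * t + 1),
              (((2 * t : ℕ) : ℝ) / 2 - m) ^ 2 * bw (2 * t) m := by
        rw [Finset.mul_sum, Finset.mul_sum, ← Finset.sum_add_distrib]
        refine Finset.sum_congr rfl fun m _ => ?_
        push_cast
        have : (2 * (t : ℝ)) / 2 = t := by ring
        rw [this]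
        ring
    _ = 4 * C.lazy.Ld a N (2 * t) + 2 * (t : ℝ) ^ 2 := by
        rw [hvar, C.Ld_lazy]
        push_cast
        ring

/-- The third moment bound for an arbitrary stationary reversible chain. -/
theorem third_moment_general {a : ℕ → S → ℝ} {N : ℕ} (hL : C.Lip a N) (t : ℕ) :
    C.Ld a N t ≤ 84386 * psi83 t := by
  have h1 := C.Ld_compare hL t
  have h2 := C.lazy.lazy_third_moment C.lazy_holding (C.lazy_Lip hL) (2 * t)
  have h3 : psi83 (2 * t) ≤ 8 * psi83 t := by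
    unfold psi83 psi53
    have h4 : tp (2 * t) ≤ 2 * tp t := by
      refine tp_scale (c := 2) (d := 2) (by norm_num) (by norm_num) (by norm_num) ?_
      push_cast
      linarith
    push_cast
    have h5 := tp_nonneg (2 * t)
    have h6 : (0 : ℝ) ≤ t := Nat.cast_nonneg t
    have e : (2 * (t : ℝ)) * (2 * (t : ℝ) * tp (2 * t)) = 4 * (t : ℝ) ^ 2 * tp (2 * t) := by ring
    have e' : 8 * ((t : ℝ) * ((t : ℝ) * tp t)) = 4 * (t : ℝ) ^ 2 * (2 * tp t) := by ring
    rw [e, e']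
    exact mul_le_mul_of_nonneg_left h4 (by positivity)
  have h4 : (t : ℝ) ^ 2 ≤ psi83 t := by
    rcases Nat.eq_zero_or_pos t with rfl | ht
    · simp [psi83, psi53]
    · unfold psi83 psi53
      have h5 : (1 : ℝ) ≤ tp t := by
        unfold tp
        exact Real.one_le_rpow (by exact_mod_cast ht) (by norm_num)
      have h6 : (0 : ℝ) ≤ (t : ℝ) ^ 2 := sq_nonneg _
      have : (t : ℝ) * ((t : ℝ) * tp t) = (t : ℝ) ^ 2 * tp t := by ring
      rw [this]
      nlinarith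
  have h2' : C.lazy.Ld a N (2 * t) ≤ 2637 * psi83 (2 * t) := h2
  linarith

end Chain

end Vale.Agent.Lib.P125
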