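import Vale.Agent.Lib.P125.Moment

/-!
Growth of the averaged maximal scalar second moment.
-/

namespace Vale.Agent.Lib.P125

open Finset Matrix

namespace Chain

variable {S : Type} [Fintype S] [DecidableEq S] (C : Chain S)

/-- The `5/3` power, written as `s * s^(2/3)`. -/
noncomputable def psi53 (s : ℕ) : ℝ := s * tp s

lemma psi53_nonneg (s : ℕ) : 0 ≤ psi53 s := mul_nonneg (Nat.cast_nonneg s) (tp_nonneg s)

lemma tp_mono {a b : ℕ} (h : a ≤ b) : tp a ≤ tp b :=
  Real.rpow_le_rpow (Nat.cast_nonneg a) (Nat.cast_le.mpr h) (by norm_num)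

lemma psi53_mono {a b : ℕ} (h : a ≤ b) : psi53 a ≤ psi53 b :=
  mul_le_mul (Nat.cast_le.mpr h) (tp_mono h) (tp_nonneg a) (Nat.cast_nonneg b)

lemma tp_scale {a s : ℕ} {c d : ℝ} (hc : 0 ≤ c) (hd : 0 ≤ d) (hcd : c ^ 2 ≤ d ^ 3)
    (h : (a : ℝ) ≤ c * s) : tp a ≤ d * tp s := by
  have h1 : (tp a) ^ 3 ≤ (d * tp s) ^ 3 := by
    rw [mul_pow, tp_cube, tp_cube]
    have h2 : (a : ℝ) ^ 2 ≤ (c * s) ^ 2 := pow_le_pow_left₀ (Nat.cast_nonneg a) h 2
    rw [mul_pow] at h2
    have h3 : c ^ 2 * (s : ℝ) ^ 2 ≤ d ^ 3 * (s : ℝ) ^ 2 :=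
      mul_le_mul_of_nonneg_right hcd (sq_nonneg _)
    linarith
  exact le_of_pow_le_pow_left₀ (by norm_num) (mul_nonneg hd (tp_nonneg s)) h1

lemma psi53_scale {a s : ℕ} {c d : ℝ} (hc : 0 ≤ c) (hd : 0 ≤ d) (hcd : c ^ 2 ≤ d ^ 3)
    (h : (a : ℝ) ≤ c * s) : psi53 a ≤ c * d * psi53 s := by
  have h1 := tp_scale hc hd hcd h
  unfold psi53
  calc (a : ℝ) * tp a ≤ (c * s) * (d * tp s) :=
        mul_le_mul h h1 (tp_nonneg a) (mul_nonneg hc (Nat.cast_nonneg s))
    _ = c * d * (s * tp s) := by ring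

lemma Psi_le {a : ℕ → S → ℝ} {N : ℕ} (hL : C.Lip a N) (s : ℕ) (z : S) :
    C.Psi a N s z ≤ (s : ℝ) ^ 2 := by
  refine Finset.sup'_le _ _ fun k hk => ?_
  have hk' : k ≤ N := by
    have := Finset.mem_range.mp hk
    omega
  calc ∑ y, (C.P ^ s) z y * (Gs a k y - Gs a k z) ^ 2
      ≤ ∑ y, (C.P ^ s) z y * (s : ℝ) ^ 2 := by
        refine Finset.sum_le_sum fun y _ => ?_
        by_cases h : (C.P ^ s) z y = 0
        · simp [h]
        · refine mul_le_mul_of_nonneg_left ?_ (C.pow_nonneg' s z y)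
          rw [← sq_abs]
          exact pow_le_pow_left₀ (abs_nonneg _) (C.Gs_path hL hk' s h) 2
    _ = (s : ℝ) ^ 2 := by rw [← Finset.sum_mul, C.pow_sum, one_mul]

lemma Phi_le {a : ℕ → S → ℝ} {N : ℕ} (hL : C.Lip a N) (s : ℕ) :
    C.Phi a N s ≤ (s : ℝ) ^ 2 := by
  unfold Phi
  calc ∑ z, C.pi z * C.Psi a N s z ≤ ∑ z, C.pi z * (s : ℝ) ^ 2 :=
        Finset.sum_le_sum fun z _ => mul_le_mul_of_nonneg_left (C.Psi_le hL s z) (C.pi_nonneg z)
    _ = (s : ℝ) ^ 2 := by rw [← Finset.sum_mul, C.pi_sum, one_mul]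

lemma Phi_nonneg (a : ℕ → S → ℝ) (N s : ℕ) : 0 ≤ C.Phi a N s :=
  Finset.sum_nonneg fun z _ => mul_nonneg (C.pi_nonneg z) (C.Psi_nonneg a N s z)

/-- The main growth bound. -/
lemma Phi_growth (hlazy : ∀ w, 1 / 2 ≤ C.P w w) {a : ℕ → S → ℝ} {N : ℕ} (hL : C.Lip a N) (s : ℕ) :
    C.Phi a N s ≤ 146 * psi53 s := by
  induction s using Nat.strong_induction_on with
  | _ s ih =>
    by_cases hs : s < 2
    · have h0 := C.Phi_le hL s
      interval_cases s
      · simpa [psi53] using h0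
      · have : psi53 1 = 1 := by simp [psi53, tp]
        rw [this]
        have h1 : C.Phi a N 1 ≤ 1 := by simpa using h0
        linarith
    · push Not at hs
      set q := s / 2 with hq
      set p := s - q with hp
      have hsum : p + q = s := by omega
      have hq1 : 1 ≤ q := by omega
      have hqlt : q < s := by omega
      have hplt : p < s := by omega
      have hrec := C.phi_rec (a := a) (N := N) p q
      rw [hsum] at hrec
      have hIq := ih q hqlt
      have hIp := ih p hplt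
      have hsec := C.second_mn hlazy hL q
      have hqs : (q : ℝ) ≤ (1 / 2) * s := by
        have : 2 * q ≤ s := by omega
        have h' : (2 : ℝ) * q ≤ s := by exact_mod_cast this
        linarith
      have hps : (p : ℝ) ≤ (2 / 3) * s := by
        have : 3 * p ≤ 2 * s := by omega
        have h' : (3 : ℝ) * p ≤ 2 * s := by exact_mod_cast this
        linarith
      have hψq := psi53_scale (a := q) (s := s) (c := 1 / 2) (d := 63 / 100) (by norm_num)
        (by norm_num) (by norm_num) hqs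
      have hψp := psi53_scale (a := p) (s := s) (c := 2 / 3) (d := 77 / 100) (by norm_num)
        (by norm_num) (by norm_num) hps
      have hψs := psi53_nonneg s
      have hψqd : (q : ℝ) * tp q = psi53 q := rfl
      rw [hψqd] at hsec
      nlinarith

end Chain

end Vale.Agent.Lib.P125
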