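import Vale.Agent.Lib.P125.Cvm

/-!
Mean displacement of the initial sums along a lazy reversible chain.
-/

namespace Vale.Agent.Lib.P125

open Finset Matrix

/-- Initial sums of a family of functions. -/
def Gs {S : Type} (a : ℕ → S → ℝ) (k : ℕ) (z : S) : ℝ := ∑ i ∈ range k, a i z

namespace Chain

variable {S : Type} [Fintype S] [DecidableEq S] (C : Chain S)

/-- One step Lipschitz hypothesis in the `ℓ¹` norm. -/
def Lip (a : ℕ → S → ℝ) (N : ℕ) : Prop :=
  ∀ x y, C.P x y ≠ 0 → ∑ i ∈ range N, |a i y - a i x| ≤ 1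

lemma av_sum' {ι : Type} (I : Finset ι) (t : ℕ) (f : ι → S → ℝ) (z : S) :
    C.av t (fun w => ∑ i ∈ I, f i w) z = ∑ i ∈ I, C.av t (f i) z := by
  unfold av
  simp only [Finset.mul_sum]
  rw [Finset.sum_comm]

lemma Gs_indicator (a : ℕ → S → ℝ) (N : ℕ) (k : S → ℕ) (z w : S) (hk : k z ≤ N) :
    Gs a (k z) w = ∑ i ∈ range N, thr k (i + 1) z * a i w := by
  unfold Gs
  have hsub : range (k z) ⊆ range N := Finset.range_subset_range.mpr hk
  rw [← Finset.sum_subset hsub]
  · refine Finset.sum_congr rfl fun i hi => ?_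
    have : i + 1 ≤ k z := by
      have := Finset.mem_range.mp hi
      omega
    simp [thr, this]
  · intro i _ hi
    have : ¬ i + 1 ≤ k z := by
      intro h
      exact hi (Finset.mem_range.mpr (by omega))
    simp [thr, this]

lemma displacement_expand (a : ℕ → S → ℝ) (N : ℕ) (k : S → ℕ) (hk : ∀ z, k z ≤ N) (t : ℕ) (z : S) :
    C.av t (Gs a (k z)) z - Gs a (k z) z
      = ∑ i ∈ range N, thr k (i + 1) z * (C.av t (a i) z - a i z) := by
  have e1 : Gs a (k z) = fun w => ∑ i ∈ range N, thr k (i + 1) z * a i w := by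
    funext w
    exact Gs_indicator a N k z w (hk z)
  rw [e1, av_sum']
  simp only [C.av_const_mul]
  rw [← Finset.sum_sub_distrib]
  exact Finset.sum_congr rfl fun i _ => by ring

/-- Edge probabilities sum to one. -/
lemma edge_sum : ∑ x, ∑ y, C.pi x * C.P x y = 1 := by
  have : ∀ x, ∑ y, C.pi x * C.P x y = C.pi x := by
    intro x
    rw [← Finset.mul_sum, C.P_sum, mul_one]
  simp only [this]
  exact C.pi_sum

/-- Jensen for the edge measure with cubes. -/
lemma edge_jensen (K : S → S → ℝ) (hK : ∀ x y, 0 ≤ K x y) :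
    (∑ x, ∑ y, C.pi x * C.P x y * K x y) ^ 3 ≤ ∑ x, ∑ y, C.pi x * C.P x y * (K x y) ^ 3 := by
  have := Real.pow_arith_mean_le_arith_mean_pow (Finset.univ : Finset (S × S))
    (fun p => C.pi p.1 * C.P p.1 p.2) (fun p => K p.1 p.2)
    (fun p _ => mul_nonneg (C.pi_nonneg _) (C.P_nonneg _ _))
    (by
      rw [Fintype.sum_prod_type]
      exact C.edge_sum)
    (fun p _ => hK _ _) 3
  simpa [Fintype.sum_prod_type] using this

/-- The two thirds power. -/
noncomputable def tp (t : ℕ) : ℝ := (t : ℝ) ^ (2 / 3 : ℝ)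

lemma tp_nonneg (t : ℕ) : 0 ≤ tp t := Real.rpow_nonneg (Nat.cast_nonneg t) _

lemma tp_cube (t : ℕ) : (tp t) ^ 3 = (t : ℝ) ^ 2 := by
  unfold tp
  rw [← Real.rpow_natCast, ← Real.rpow_mul (Nat.cast_nonneg t)]
  norm_num

/-- One sided mean displacement with an arbitrary label. -/
lemma mean_one_side (hlazy : ∀ w, 1 / 2 ≤ C.P w w) {a : ℕ → S → ℝ} {N : ℕ} (hL : C.Lip a N)
    (k : S → ℕ) (hk : ∀ z, k z ≤ N) (t : ℕ) :
    ∑ z, C.pi z * (C.av t (Gs a (k z)) z - Gs a (k z) z) ≤ 2 * tp t := by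
  have e1 : ∑ z, C.pi z * (C.av t (Gs a (k z)) z - Gs a (k z) z)
      = -(1 / 2) * ∑ x, ∑ y, C.pi x * C.P x y *
          ∑ i ∈ range N, C.Hh k t x y (i + 1) * (a i y - a i x) := by
    calc ∑ z, C.pi z * (C.av t (Gs a (k z)) z - Gs a (k z) z)
        = ∑ i ∈ range N, ∑ z, C.pi z * thr k (i + 1) z * (C.av t (a i) z - a i z) := by
          rw [Finset.sum_comm]
          refine Finset.sum_congr rfl fun z _ => ?_
          rw [C.displacement_expand a N k hk t z, Finset.mul_sum]
          exact Finset.sum_congr rfl fun i _ => by ring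
      _ = ∑ i ∈ range N, (-(1 / 2) * ∑ x, ∑ y, C.pi x * C.P x y *
            (C.Hh k t x y (i + 1) * (a i y - a i x))) := by
          refine Finset.sum_congr rfl fun i _ => ?_
          exact C.displacement_dirichlet t (thr k (i + 1)) (a i)
      _ = _ := by
          rw [← Finset.mul_sum]
          congr 1
          rw [Finset.sum_comm]
          refine Finset.sum_congr rfl fun x _ => ?_
          rw [Finset.sum_comm]
          refine Finset.sum_congr rfl fun y _ => ?_
          rw [Finset.mul_sum]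
  set Kk : S → S → ℝ := fun x y => (3 * C.Gam k t x y) ^ (1 / 3 : ℝ) with hKk
  have hKnn : ∀ x y, 0 ≤ Kk x y := fun x y => Real.rpow_nonneg
    (mul_nonneg (by norm_num) (C.Gam_nonneg k t x y)) _
  have hKcube : ∀ x y, (Kk x y) ^ 3 = 3 * C.Gam k t x y := by
    intro x y
    simp only [hKk]
    rw [← Real.rpow_natCast, ← Real.rpow_mul (mul_nonneg (by norm_num) (C.Gam_nonneg k t x y))]
    norm_num
  have hHle : ∀ x y τ, |C.Hh k t x y τ| ≤ Kk x y := by
    intro x y τ
    have h := C.Hh_cube_le k t x y τ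
    rw [← hKcube x y] at h
    exact le_of_pow_le_pow_left₀ (by norm_num) (hKnn x y) h
  have hedge : ∀ x y, - (C.pi x * C.P x y *
      ∑ i ∈ range N, C.Hh k t x y (i + 1) * (a i y - a i x)) ≤ C.pi x * C.P x y * Kk x y := by
    intro x y
    by_cases hP : C.P x y = 0
    · simp [hP]
    · have hw : 0 ≤ C.pi x * C.P x y := mul_nonneg (C.pi_nonneg x) (C.P_nonneg x y)
      rw [← mul_neg]
      refine mul_le_mul_of_nonneg_left ?_ hw
      calc - ∑ i ∈ range N, C.Hh k t x y (i + 1) * (a i y - a i x)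
          ≤ |∑ i ∈ range N, C.Hh k t x y (i + 1) * (a i y - a i x)| := neg_le_abs _
        _ ≤ ∑ i ∈ range N, |C.Hh k t x y (i + 1) * (a i y - a i x)| :=
            Finset.abs_sum_le_sum_abs _ _
        _ ≤ ∑ i ∈ range N, Kk x y * |a i y - a i x| := by
            refine Finset.sum_le_sum fun i _ => ?_
            rw [abs_mul]
            exact mul_le_mul_of_nonneg_right (hHle x y _) (abs_nonneg _)
        _ = Kk x y * ∑ i ∈ range N, |a i y - a i x| := by rw [Finset.mul_sum]
        _ ≤ Kk x y * 1 := mul_le_mul_of_nonneg_left (hL x y hP) (hKnn x y)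
        _ = Kk x y := mul_one _
  set Q := ∑ x, ∑ y, C.pi x * C.P x y * Kk x y with hQ
  have hQnn : 0 ≤ Q := Finset.sum_nonneg fun x _ => Finset.sum_nonneg fun y _ =>
    mul_nonneg (mul_nonneg (C.pi_nonneg x) (C.P_nonneg x y)) (hKnn x y)
  have hQ3 : Q ^ 3 ≤ 36 * (t : ℝ) ^ 2 := by
    calc Q ^ 3 ≤ ∑ x, ∑ y, C.pi x * C.P x y * (Kk x y) ^ 3 := C.edge_jensen Kk hKnn
      _ = 3 * ∑ x, ∑ y, C.pi x * C.P x y * C.Gam k t x y := by
          simp only [hKcube]
          rw [Finset.mul_sum]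
          refine Finset.sum_congr rfl fun x _ => ?_
          rw [Finset.mul_sum]
          exact Finset.sum_congr rfl fun y _ => by ring
      _ ≤ 3 * (12 * (t : ℝ) ^ 2) := by
          have := C.edge_Gam_bound hlazy k t
          linarith
      _ = 36 * (t : ℝ) ^ 2 := by ring
  have hQle : Q ≤ 4 * tp t := by
    have h4 : 0 ≤ 4 * tp t := mul_nonneg (by norm_num) (tp_nonneg t)
    have : Q ^ 3 ≤ (4 * tp t) ^ 3 := by
      rw [mul_pow, tp_cube]
      have : (0 : ℝ) ≤ (t : ℝ) ^ 2 := sq_nonneg _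
      linarith
    exact le_of_pow_le_pow_left₀ (by norm_num) h4 this
  rw [e1]
  have hneg : -(∑ x, ∑ y, C.pi x * C.P x y *
      ∑ i ∈ range N, C.Hh k t x y (i + 1) * (a i y - a i x)) ≤ Q := by
    rw [← Finset.sum_neg_distrib]
    refine Finset.sum_le_sum fun x _ => ?_
    rw [← Finset.sum_neg_distrib]
    exact Finset.sum_le_sum fun y _ => hedge x y
  linarith

end Chain

end Vale.Agent.Lib.P125
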