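import Vale.Agent.Lib.P125.Mean

/-!
Maximal mean displacement, second moments and the recursion for scalar second moments.
-/

namespace Vale.Agent.Lib.P125

open Finset Matrix

namespace Chain

variable {S : Type} [Fintype S] [DecidableEq S] (C : Chain S)

lemma range_succ_nonempty (N : ℕ) : (range (N + 1)).Nonempty := ⟨0, Finset.mem_range.mpr (by omega)⟩

/-- Maximal size of the mean displacement of the initial sums at `z`. -/
noncomputable def mn (a : ℕ → S → ℝ) (N s : ℕ) (z : S) : ℝ :=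
  (range (N + 1)).sup' (range_succ_nonempty N) (fun k => |C.av s (Gs a k) z - Gs a k z|)

/-- Maximal scalar second moment of the initial sums started at `z`. -/
noncomputable def Psi (a : ℕ → S → ℝ) (N s : ℕ) (z : S) : ℝ :=
  (range (N + 1)).sup' (range_succ_nonempty N)
    (fun k => ∑ y, (C.P ^ s) z y * (Gs a k y - Gs a k z) ^ 2)

/-- The average of `Psi`. -/
noncomputable def Phi (a : ℕ → S → ℝ) (N s : ℕ) : ℝ := ∑ z, C.pi z * C.Psi a N s z

lemma le_mn (a : ℕ → S → ℝ) (N s : ℕ) (z : S) {k : ℕ} (hk : k ≤ N) :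
    |C.av s (Gs a k) z - Gs a k z| ≤ C.mn a N s z :=
  Finset.le_sup' (fun k => |C.av s (Gs a k) z - Gs a k z|)
    (Finset.mem_range.mpr (by omega))

lemma le_Psi (a : ℕ → S → ℝ) (N s : ℕ) (z : S) {k : ℕ} (hk : k ≤ N) :
    ∑ y, (C.P ^ s) z y * (Gs a k y - Gs a k z) ^ 2 ≤ C.Psi a N s z :=
  Finset.le_sup' (fun k => ∑ y, (C.P ^ s) z y * (Gs a k y - Gs a k z) ^ 2)
    (Finset.mem_range.mpr (by omega))

lemma mn_nonneg (a : ℕ → S → ℝ) (N s : ℕ) (z : S) : 0 ≤ C.mn a N s z :=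
  (abs_nonneg _).trans (C.le_mn a N s z (Nat.zero_le N))

lemma Psi_nonneg (a : ℕ → S → ℝ) (N s : ℕ) (z : S) : 0 ≤ C.Psi a N s z := by
  refine le_trans ?_ (C.le_Psi a N s z (Nat.zero_le N))
  exact Finset.sum_nonneg fun y _ => mul_nonneg (C.pow_nonneg' s z y) (sq_nonneg _)

lemma Gs_zero (a : ℕ → S → ℝ) (z : S) : Gs a 0 z = 0 := by
  simp [Gs]

lemma av_Gs_zero (a : ℕ → S → ℝ) (s : ℕ) (z : S) : C.av s (Gs a 0) z = 0 := by
  unfold av
  simp [Gs_zero]

lemma Gs_step {a : ℕ → S → ℝ} {N : ℕ} (hL : C.Lip a N) {k : ℕ} (hk : k ≤ N) {x y : S}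
    (hP : C.P x y ≠ 0) : |Gs a k y - Gs a k x| ≤ 1 := by
  unfold Gs
  rw [← Finset.sum_sub_distrib]
  calc |∑ i ∈ range k, (a i y - a i x)| ≤ ∑ i ∈ range k, |a i y - a i x| :=
        Finset.abs_sum_le_sum_abs _ _
    _ ≤ ∑ i ∈ range N, |a i y - a i x| :=
        Finset.sum_le_sum_of_subset_of_nonneg (Finset.range_subset_range.mpr hk)
          (fun _ _ _ => abs_nonneg _)
    _ ≤ 1 := hL x y hP

lemma Gs_path {a : ℕ → S → ℝ} {N : ℕ} (hL : C.Lip a N) {k : ℕ} (hk : k ≤ N) (s : ℕ) {x y : S}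
    (hP : (C.P ^ s) x y ≠ 0) : |Gs a k y - Gs a k x| ≤ s := by
  induction s generalizing y with
  | zero =>
    have : x = y := by
      by_contra h
      apply hP
      simp [Matrix.one_apply, h]
    subst this
    simp
  | succ s ih =>
    rw [C.pow_succ_apply] at hP
    obtain ⟨u, _, hu⟩ := Finset.exists_ne_zero_of_sum_ne_zero hP
    have h1 : (C.P ^ s) x u ≠ 0 := left_ne_zero_of_mul hu
    have h2 : C.P u y ≠ 0 := right_ne_zero_of_mul hu
    have h3 := ih h1
    have h4 := C.Gs_step hL hk h2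
    have h5 : |Gs a k y - Gs a k x| ≤ |Gs a k y - Gs a k u| + |Gs a k u - Gs a k x| := by
      have : Gs a k y - Gs a k x = (Gs a k y - Gs a k u) + (Gs a k u - Gs a k x) := by ring
      rw [this]
      exact abs_add_le _ _
    push_cast
    linarith

lemma av_sub_eq (s : ℕ) (h : S → ℝ) (z : S) :
    C.av s h z - h z = ∑ y, (C.P ^ s) z y * (h y - h z) := by
  unfold av
  have : ∑ y, (C.P ^ s) z y * (h y - h z)
      = ∑ y, (C.P ^ s) z y * h y - (∑ y, (C.P ^ s) z y) * h z := by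
    rw [Finset.sum_mul, ← Finset.sum_sub_distrib]
    exact Finset.sum_congr rfl fun y _ => by ring
  rw [this, C.pow_sum, one_mul]

lemma mn_le {a : ℕ → S → ℝ} {N : ℕ} (hL : C.Lip a N) (s : ℕ) (z : S) : C.mn a N s z ≤ s := by
  unfold mn
  refine Finset.sup'_le _ _ fun k hk => ?_
  have hk' : k ≤ N := by
    have := Finset.mem_range.mp hk
    omega
  rw [av_sub_eq]
  calc |∑ y, (C.P ^ s) z y * (Gs a k y - Gs a k z)|
      ≤ ∑ y, |(C.P ^ s) z y * (Gs a k y - Gs a k z)| := Finset.abs_sum_le_sum_abs _ _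
    _ ≤ ∑ y, (C.P ^ s) z y * (s : ℝ) := by
        refine Finset.sum_le_sum fun y _ => ?_
        rw [abs_mul, abs_of_nonneg (C.pow_nonneg' s z y)]
        by_cases h : (C.P ^ s) z y = 0
        · simp [h]
        · exact mul_le_mul_of_nonneg_left (C.Gs_path hL hk' s h) (C.pow_nonneg' s z y)
    _ = s := by rw [← Finset.sum_mul, C.pow_sum, one_mul]

lemma Lip_neg {a : ℕ → S → ℝ} {N : ℕ} (hL : C.Lip a N) : C.Lip (fun i z => - a i z) N := by
  intro x y h
  have := hL x y h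
  refine le_trans (le_of_eq ?_) this
  refine Finset.sum_congr rfl fun i _ => ?_
  rw [show - a i y - - a i x = -(a i y - a i x) by ring, abs_neg]

lemma Gs_neg (a : ℕ → S → ℝ) (k : ℕ) : Gs (fun i z => - a i z) k = fun z => - Gs a k z := by
  funext z
  unfold Gs
  rw [Finset.sum_neg_distrib]

lemma av_neg (s : ℕ) (h : S → ℝ) (z : S) : C.av s (fun w => - h w) z = - C.av s h z := by
  unfold av
  rw [← Finset.sum_neg_distrib]
  exact Finset.sum_congr rfl fun y _ => by ring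

/-- The maximal mean displacement. -/
lemma mean_mn (hlazy : ∀ w, 1 / 2 ≤ C.P w w) {a : ℕ → S → ℝ} {N : ℕ} (hL : C.Lip a N) (s : ℕ) :
    ∑ z, C.pi z * C.mn a N s z ≤ 4 * tp s := by
  classical
  -- maximising labels for both signs
  have hp : ∀ z, ∃ k ∈ range (N + 1), ∀ j ∈ range (N + 1),
      C.av s (Gs a j) z - Gs a j z ≤ C.av s (Gs a k) z - Gs a k z := fun z =>
    Finset.exists_max_image _ _ (range_succ_nonempty N)
  have hq : ∀ z, ∃ k ∈ range (N + 1), ∀ j ∈ range (N + 1),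
      -(C.av s (Gs a j) z - Gs a j z) ≤ -(C.av s (Gs a k) z - Gs a k z) := fun z =>
    Finset.exists_max_image _ _ (range_succ_nonempty N)
  choose kp hkp hkp' using hp
  choose kq hkq hkq' using hq
  have hkpN : ∀ z, kp z ≤ N := fun z => by
    have := Finset.mem_range.mp (hkp z)
    omega
  have hkqN : ∀ z, kq z ≤ N := fun z => by
    have := Finset.mem_range.mp (hkq z)
    omega
  have h1 := C.mean_one_side hlazy hL kp hkpN s
  have h2 := C.mean_one_side hlazy (C.Lip_neg hL) kq hkqN s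
  have h2' : ∑ z, C.pi z * (-(C.av s (Gs a (kq z)) z - Gs a (kq z) z)) ≤ 2 * tp s := by
    refine le_trans (le_of_eq ?_) h2
    refine Finset.sum_congr rfl fun z _ => ?_
    rw [Gs_neg, av_neg]
    ring
  have hpt : ∀ z, C.mn a N s z ≤ (C.av s (Gs a (kp z)) z - Gs a (kp z) z)
      + (-(C.av s (Gs a (kq z)) z - Gs a (kq z) z)) := by
    intro z
    have hz1 := hkp' z 0 (Finset.mem_range.mpr (by omega))
    have hz2 := hkq' z 0 (Finset.mem_range.mpr (by omega))
    rw [C.av_Gs_zero, Gs_zero] at hz1 hz2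
    unfold mn
    refine Finset.sup'_le _ _ fun k hk => ?_
    have h3 := hkp' z k hk
    have h4 := hkq' z k hk
    rw [abs_le]
    constructor <;> linarith
  calc ∑ z, C.pi z * C.mn a N s z
      ≤ ∑ z, C.pi z * ((C.av s (Gs a (kp z)) z - Gs a (kp z) z)
          + (-(C.av s (Gs a (kq z)) z - Gs a (kq z) z))) :=
        Finset.sum_le_sum fun z _ => mul_le_mul_of_nonneg_left (hpt z) (C.pi_nonneg z)
    _ = ∑ z, C.pi z * (C.av s (Gs a (kp z)) z - Gs a (kp z) z)
          + ∑ z, C.pi z * (-(C.av s (Gs a (kq z)) z - Gs a (kq z) z)) := by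
        rw [← Finset.sum_add_distrib]
        exact Finset.sum_congr rfl fun z _ => by ring
    _ ≤ 4 * tp s := by linarith

/-- Second moment of the maximal mean displacement. -/
lemma second_mn (hlazy : ∀ w, 1 / 2 ≤ C.P w w) {a : ℕ → S → ℝ} {N : ℕ} (hL : C.Lip a N) (s : ℕ) :
    ∑ z, C.pi z * (C.mn a N s z) ^ 2 ≤ 4 * (s * tp s) := by
  have h1 : ∀ z, C.pi z * (C.mn a N s z) ^ 2 ≤ (s : ℝ) * (C.pi z * C.mn a N s z) := by
    intro z
    have h2 := C.mn_le hL s z
    have h3 := C.mn_nonneg a N s z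
    have h4 : (C.mn a N s z) ^ 2 ≤ (s : ℝ) * C.mn a N s z := by nlinarith
    have h5 := mul_le_mul_of_nonneg_left h4 (C.pi_nonneg z)
    linarith
  calc ∑ z, C.pi z * (C.mn a N s z) ^ 2 ≤ ∑ z, (s : ℝ) * (C.pi z * C.mn a N s z) :=
        Finset.sum_le_sum fun z _ => h1 z
    _ = (s : ℝ) * ∑ z, C.pi z * C.mn a N s z := by rw [Finset.mul_sum]
    _ ≤ (s : ℝ) * (4 * tp s) :=
        mul_le_mul_of_nonneg_left (C.mean_mn hlazy hL s) (Nat.cast_nonneg s)
    _ = 4 * (s * tp s) := by ring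

/-- Averaging preserves the stationary expectation. -/
lemma stationary_av (a : ℕ) (v : S → ℝ) : ∑ z, C.pi z * C.av a v z = ∑ z, C.pi z * v z := by
  have := C.av_selfadj a (fun _ => (1 : ℝ)) v
  simp only [mul_one] at this
  rw [this]
  refine Finset.sum_congr rfl fun z _ => ?_
  rw [C.av_const]
  ring

/-- A pointwise form of the recursion. -/
lemma psi_rec {a : ℕ → S → ℝ} {N : ℕ} (p q : ℕ) (z : S) :
    C.Psi a N (p + q) z
      ≤ C.av p (C.Psi a N q) z + (5 / 4) * C.Psi a N p z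
        + 5 * C.av p (fun w => (C.mn a N q w) ^ 2) z := by
  refine Finset.sup'_le _ _ fun k hk => ?_
  have hk' : k ≤ N := by
    have := Finset.mem_range.mp hk
    omega
  set G := Gs a k with hG
  have hexp : ∑ y, (C.P ^ (p + q)) z y * (G y - G z) ^ 2
      = ∑ w, (C.P ^ p) z w * ∑ y, (C.P ^ q) w y * (G y - G z) ^ 2 := by
    calc ∑ y, (C.P ^ (p + q)) z y * (G y - G z) ^ 2
        = ∑ y, ∑ w, (C.P ^ p) z w * ((C.P ^ q) w y * (G y - G z) ^ 2) := by
          refine Finset.sum_congr rfl fun y _ => ?_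
          rw [C.pow_add_apply, Finset.sum_mul]
          exact Finset.sum_congr rfl fun w _ => by ring
      _ = _ := by
          rw [Finset.sum_comm]
          exact Finset.sum_congr rfl fun w _ => (Finset.mul_sum _ _ _).symm
  have hid : ∀ w (c : ℝ), ∑ y, (C.P ^ q) w y * (G y - c) ^ 2
      = ∑ y, (C.P ^ q) w y * (G y - C.av q G w) ^ 2 + (C.av q G w - c) ^ 2 := by
    intro w c
    set μ := C.av q G w with hμ
    have hsum := C.pow_sum q w
    have hmean : ∑ y, (C.P ^ q) w y * G y = μ := rfl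
    have e : ∀ y, (C.P ^ q) w y * (G y - c) ^ 2
        = (C.P ^ q) w y * (G y - μ) ^ 2 + 2 * (μ - c) * ((C.P ^ q) w y * G y)
          + ((μ - c) ^ 2 - 2 * (μ - c) * μ) * (C.P ^ q) w y := by
      intro y; ring
    simp only [e, Finset.sum_add_distrib, ← Finset.mul_sum, hsum, hmean]
    ring
  have hpt : ∀ w, ∑ y, (C.P ^ q) w y * (G y - G z) ^ 2
      ≤ C.Psi a N q w + (5 / 4) * (G w - G z) ^ 2 + 5 * (C.mn a N q w) ^ 2 := by
    intro w
    have h1 := hid w (G z)
    have h2 := hid w (G w)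
    have h3 := C.le_Psi a N q w hk'
    have h4 := C.le_mn a N q w hk'
    have h5 : (C.av q G w - G w) ^ 2 ≤ (C.mn a N q w) ^ 2 := by
      rw [← sq_abs]
      exact pow_le_pow_left₀ (abs_nonneg _) h4 2
    have h6 : (C.av q G w - G z) ^ 2
        ≤ (5 / 4) * (G w - G z) ^ 2 + 5 * (C.av q G w - G w) ^ 2 := by
      nlinarith [sq_nonneg ((G w - G z) / 2 - 2 * (C.av q G w - G w))]
    have h7 : 0 ≤ (C.av q G w - G w) ^ 2 := sq_nonneg _
    rw [hG] at *
    linarith
  rw [hexp]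
  calc ∑ w, (C.P ^ p) z w * ∑ y, (C.P ^ q) w y * (G y - G z) ^ 2
      ≤ ∑ w, (C.P ^ p) z w * (C.Psi a N q w + (5 / 4) * (G w - G z) ^ 2
          + 5 * (C.mn a N q w) ^ 2) :=
        Finset.sum_le_sum fun w _ => mul_le_mul_of_nonneg_left (hpt w) (C.pow_nonneg' p z w)
    _ = C.av p (C.Psi a N q) z + (5 / 4) * ∑ w, (C.P ^ p) z w * (G w - G z) ^ 2
          + 5 * C.av p (fun w => (C.mn a N q w) ^ 2) z := by
        unfold av
        rw [Finset.mul_sum, Finset.mul_sum, ← Finset.sum_add_distrib, ← Finset.sum_add_distrib]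
        exact Finset.sum_congr rfl fun w _ => by ring
    _ ≤ _ := by
        have := C.le_Psi a N p z hk'
        have h8 : (5 / 4 : ℝ) * ∑ w, (C.P ^ p) z w * (G w - G z) ^ 2
            ≤ (5 / 4) * C.Psi a N p z :=
          mul_le_mul_of_nonneg_left this (by norm_num)
        linarith

/-- The averaged recursion. -/
lemma phi_rec {a : ℕ → S → ℝ} {N : ℕ} (p q : ℕ) :
    C.Phi a N (p + q) ≤ C.Phi a N q + (5 / 4) * C.Phi a N p
      + 5 * ∑ z, C.pi z * (C.mn a N q z) ^ 2 := by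
  unfold Phi
  calc ∑ z, C.pi z * C.Psi a N (p + q) z
      ≤ ∑ z, C.pi z * (C.av p (C.Psi a N q) z + (5 / 4) * C.Psi a N p z
        + 5 * C.av p (fun w => (C.mn a N q w) ^ 2) z) :=
        Finset.sum_le_sum fun z _ => mul_le_mul_of_nonneg_left (C.psi_rec p q z) (C.pi_nonneg z)
    _ = ∑ z, C.pi z * C.av p (C.Psi a N q) z + (5 / 4) * ∑ z, C.pi z * C.Psi a N p z
        + 5 * ∑ z, C.pi z * C.av p (fun w => (C.mn a N q w) ^ 2) z := by
        rw [Finset.mul_sum, Finset.mul_sum, ← Finset.sum_add_distrib, ← Finset.sum_add_distrib]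
        exact Finset.sum_congr rfl fun w _ => by ring
    _ = _ := by
        rw [C.stationary_av, C.stationary_av]

end Chain

end Vale.Agent.Lib.P125
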