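import Vale.Agent.Lib.P125.Growth

/-!
From scalar second moments to the third moment of the maximal initial sum of the displacement.
-/

namespace Vale.Agent.Lib.P125

open Finset Matrix

/-- The sequence form: initial sums controlled by their increments. -/
lemma seq_cube (Δ : ℕ → ℝ) (h0 : Δ 0 = 0) (k : ℕ) :
    |Δ k| ^ 3 ≤ (3 / 2) * ∑ i ∈ range k, |Δ (i + 1) - Δ i| * ((Δ i) ^ 2 + (Δ (i + 1)) ^ 2) := by
  induction k with
  | zero => simp [h0]
  | succ k ih =>
    rw [Finset.sum_range_succ, mul_add]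
    have hA : 0 ≤ |Δ k| := abs_nonneg _
    have hB : 0 ≤ |Δ (k + 1)| := abs_nonneg _
    have hc : |Δ (k + 1)| - |Δ k| ≤ |Δ (k + 1) - Δ k| := abs_sub_abs_le_abs_sub _ _
    have hc0 : 0 ≤ |Δ (k + 1) - Δ k| := abs_nonneg _
    have e1 : (Δ k) ^ 2 = |Δ k| ^ 2 := (sq_abs _).symm
    have e2 : (Δ (k + 1)) ^ 2 = |Δ (k + 1)| ^ 2 := (sq_abs _).symm
    rw [e1, e2]
    set A := |Δ k|
    set B := |Δ (k + 1)|
    set c := |Δ (k + 1) - Δ k|
    have key : B ^ 3 - A ^ 3 ≤ (3 / 2) * (c * (A ^ 2 + B ^ 2)) := by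
      by_cases hAB : B ≤ A
      · have : B ^ 3 ≤ A ^ 3 := pow_le_pow_left₀ hB hAB 3
        have : 0 ≤ c * (A ^ 2 + B ^ 2) := by positivity
        linarith
      · push Not at hAB
        have e : B ^ 3 - A ^ 3 = (B - A) * (A ^ 2 + A * B + B ^ 2) := by ring
        have h1 : A ^ 2 + A * B + B ^ 2 ≤ (3 / 2) * (A ^ 2 + B ^ 2) := by
          nlinarith [sq_nonneg (A - B)]
        have h2 : (B - A) * (A ^ 2 + A * B + B ^ 2) ≤ c * (A ^ 2 + A * B + B ^ 2) :=
          mul_le_mul_of_nonneg_right hc (by positivity)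
        have h3 : c * (A ^ 2 + A * B + B ^ 2) ≤ c * ((3 / 2) * (A ^ 2 + B ^ 2)) :=
          mul_le_mul_of_nonneg_left h1 hc0
        nlinarith
    linarith

namespace Chain

variable {S : Type} [Fintype S] [DecidableEq S] (C : Chain S)

/-- Path weight with a marked step. -/
def pth (t : ℕ) (x y : S) (r : ℕ) (u v : S) : ℝ :=
  (C.P ^ r) x u * C.P u v * (C.P ^ (t - 1 - r)) v y

lemma pth_nonneg (t : ℕ) (x y : S) (r : ℕ) (u v : S) : 0 ≤ C.pth t x y r u v :=
  mul_nonneg (mul_nonneg (C.pow_nonneg' r x u) (C.P_nonneg u v)) (C.pow_nonneg' _ v y)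

/-- Telescoping over the time of a marked step. -/
lemma path_telescope (t : ℕ) (x y : S) (h : S → ℝ) :
    (C.P ^ t) x y * (h y - h x)
      = ∑ r ∈ range t, ∑ u, ∑ v, C.pth t x y r u v * (h v - h u) := by
  let Y : ℕ → ℝ := fun r => ∑ u, (C.P ^ r) x u * h u * (C.P ^ (t - r)) u y
  have hstep : ∀ r ∈ range t, ∑ u, ∑ v, C.pth t x y r u v * (h v - h u) = Y (r + 1) - Y r := by
    intro r hr
    have hr' : r < t := Finset.mem_range.mp hr
    have e0 : t - (r + 1) = t - 1 - r := by omega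
    have e1 : t - r = (t - 1 - r) + 1 := by omega
    have hY1 : Y (r + 1) = ∑ u, ∑ v, C.pth t x y r u v * h v := by
      simp only [Y, e0]
      rw [Finset.sum_comm]
      refine Finset.sum_congr rfl fun v _ => ?_
      rw [C.pow_succ_apply, Finset.sum_mul, Finset.sum_mul]
      refine Finset.sum_congr rfl fun u _ => ?_
      unfold pth
      ring
    have hY0 : Y r = ∑ u, ∑ v, C.pth t x y r u v * h u := by
      simp only [Y]
      refine Finset.sum_congr rfl fun u _ => ?_
      rw [e1, C.pow_succ_apply', Finset.mul_sum]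
      refine Finset.sum_congr rfl fun v _ => ?_
      unfold pth
      ring
    rw [hY1, hY0, ← Finset.sum_sub_distrib]
    refine Finset.sum_congr rfl fun u _ => ?_
    rw [← Finset.sum_sub_distrib]
    refine Finset.sum_congr rfl fun v _ => ?_
    ring
  rw [Finset.sum_congr rfl hstep, Finset.sum_range_sub]
  have hYt : Y t = (C.P ^ t) x y * h y := by
    simp only [Y, Nat.sub_self, pow_zero, Matrix.one_apply]
    simp
  have hY0 : Y 0 = (C.P ^ t) x y * h x := by
    simp only [Y, Nat.sub_zero, pow_zero, Matrix.one_apply]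
    simp
    ring
  rw [hYt, hY0]
  ring

lemma path_abs (t : ℕ) (x y : S) (h : S → ℝ) :
    (C.P ^ t) x y * |h y - h x|
      ≤ ∑ r ∈ range t, ∑ u, ∑ v, C.pth t x y r u v * |h v - h u| := by
  have h1 : (C.P ^ t) x y * |h y - h x| = |(C.P ^ t) x y * (h y - h x)| := by
    rw [abs_mul, abs_of_nonneg (C.pow_nonneg' t x y)]
  rw [h1, path_telescope]
  refine (Finset.abs_sum_le_sum_abs _ _).trans (Finset.sum_le_sum fun r _ => ?_)
  refine (Finset.abs_sum_le_sum_abs _ _).trans (Finset.sum_le_sum fun u _ => ?_)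
  refine (Finset.abs_sum_le_sum_abs _ _).trans (Finset.sum_le_sum fun v _ => ?_)
  rw [abs_mul, abs_of_nonneg (C.pth_nonneg t x y r u v)]

/-- The maximal initial sum of the displacement. -/
noncomputable def Dd {S : Type} (a : ℕ → S → ℝ) (N : ℕ) (x y : S) : ℝ :=
  (range (N + 1)).sup' (range_succ_nonempty N) (fun k => |Gs a k y - Gs a k x|)

lemma le_Dd {S : Type} (a : ℕ → S → ℝ) (N : ℕ) (x y : S) {k : ℕ} (hk : k ≤ N) :
    |Gs a k y - Gs a k x| ≤ Dd a N x y :=
  Finset.le_sup' (fun k => |Gs a k y - Gs a k x|) (Finset.mem_range.mpr (by omega))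

lemma Dd_nonneg {S : Type} (a : ℕ → S → ℝ) (N : ℕ) (x y : S) : 0 ≤ Dd a N x y :=
  (abs_nonneg _).trans (le_Dd a N x y (Nat.zero_le N))

/-- The pointwise strong inequality. -/
lemma strong_pointwise (a : ℕ → S → ℝ) (N t : ℕ) (x y : S) :
    (C.P ^ t) x y * (Dd a N x y) ^ 3
      ≤ (3 / 2) * ∑ i ∈ range N, ∑ r ∈ range t, ∑ u, ∑ v, C.pth t x y r u v *
          (|a i v - a i u| * ((Gs a i y - Gs a i x) ^ 2
            + (Gs a (i + 1) y - Gs a (i + 1) x) ^ 2)) := by
  obtain ⟨k, hk, hkmax⟩ := Finset.exists_mem_eq_sup' (range_succ_nonempty N)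
    (fun k => |Gs a k y - Gs a k x|)
  have hkN : k ≤ N := by
    have := Finset.mem_range.mp hk
    omega
  have hDd : Dd a N x y = |Gs a k y - Gs a k x| := hkmax
  rw [hDd]
  let Δ : ℕ → ℝ := fun k => Gs a k y - Gs a k x
  have h0 : Δ 0 = 0 := by simp [Δ, Gs]
  have hinc : ∀ i, Δ (i + 1) - Δ i = a i y - a i x := by
    intro i
    simp only [Δ, Gs, Finset.sum_range_succ]
    ring
  have hseq := seq_cube Δ h0 k
  simp only [hinc] at hseq
  have hq := C.pow_nonneg' t x y
  have e : |Gs a k y - Gs a k x| = |Δ k| := rfl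
  rw [e]
  calc (C.P ^ t) x y * |Δ k| ^ 3
      ≤ (C.P ^ t) x y * ((3 / 2) * ∑ i ∈ range k, |a i y - a i x| * ((Δ i) ^ 2 + (Δ (i + 1)) ^ 2)) :=
        mul_le_mul_of_nonneg_left hseq hq
    _ = (3 / 2) * ∑ i ∈ range k, ((C.P ^ t) x y * |a i y - a i x|) * ((Δ i) ^ 2 + (Δ (i + 1)) ^ 2) := by
        rw [Finset.mul_sum, Finset.mul_sum, Finset.mul_sum]
        exact Finset.sum_congr rfl fun i _ => by ring
    _ ≤ (3 / 2) * ∑ i ∈ range N, ((C.P ^ t) x y * |a i y - a i x|) * ((Δ i) ^ 2 + (Δ (i + 1)) ^ 2) := by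
        refine mul_le_mul_of_nonneg_left ?_ (by norm_num)
        exact Finset.sum_le_sum_of_subset_of_nonneg (Finset.range_subset_range.mpr hkN)
          (fun i _ _ => mul_nonneg (mul_nonneg hq (abs_nonneg _)) (by positivity))
    _ ≤ (3 / 2) * ∑ i ∈ range N, (∑ r ∈ range t, ∑ u, ∑ v, C.pth t x y r u v * |a i v - a i u|)
          * ((Δ i) ^ 2 + (Δ (i + 1)) ^ 2) := by
        refine mul_le_mul_of_nonneg_left ?_ (by norm_num)
        refine Finset.sum_le_sum fun i _ => ?_
        exact mul_le_mul_of_nonneg_right (C.path_abs t x y (a i)) (by positivity)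
    _ = _ := by
        congr 1
        refine Finset.sum_congr rfl fun i _ => ?_
        rw [Finset.sum_mul]
        refine Finset.sum_congr rfl fun r _ => ?_
        rw [Finset.sum_mul]
        refine Finset.sum_congr rfl fun u _ => ?_
        rw [Finset.sum_mul]
        refine Finset.sum_congr rfl fun v _ => ?_
        ring

/-- The key localisation estimate for a fixed marked step. -/
lemma local_bound {a : ℕ → S → ℝ} {N : ℕ} (hL : C.Lip a N) (t r : ℕ) (u v : S) {k : ℕ}
    (hk : k ≤ N) :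
    ∑ x, ∑ y, C.pi x * C.pth t x y r u v * (Gs a k y - Gs a k x) ^ 2
      ≤ 3 * (C.pi u * C.P u v) * (C.Psi a N (t - 1 - r) v + 1 + C.Psi a N r u) := by
  by_cases hP : C.P u v = 0
  · have : ∀ x y, C.pi x * C.pth t x y r u v * (Gs a k y - Gs a k x) ^ 2 = 0 := by
      intro x y
      simp [pth, hP]
    simp [this, hP]
  · set s := t - 1 - r with hs
    set G := Gs a k with hG
    have hstep : (G v - G u) ^ 2 ≤ 1 := by
      rw [← sq_abs]
      have := C.Gs_step hL hk hP
      have h1 : |G v - G u| ^ 2 ≤ 1 ^ 2 := pow_le_pow_left₀ (abs_nonneg _) this 2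
      simpa using h1
    have hw : 0 ≤ C.pi u * C.P u v := mul_nonneg (C.pi_nonneg u) (C.P_nonneg u v)
    have e : ∀ x y, C.pi x * C.pth t x y r u v * (G y - G x) ^ 2
        ≤ (C.pi u * C.P u v) * ((C.P ^ r) u x * ((C.P ^ s) v y *
            (3 * ((G y - G v) ^ 2 + 1 + (G x - G u) ^ 2)))) := by
      intro x y
      have h1 : C.pi x * C.pth t x y r u v
          = (C.pi u * C.P u v) * ((C.P ^ r) u x * (C.P ^ s) v y) := by
        unfold pth
        have := C.pow_rev r x u
        calc C.pi x * ((C.P ^ r) x u * C.P u v * (C.P ^ (t - 1 - r)) v y)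
            = (C.pi x * (C.P ^ r) x u) * (C.P u v * (C.P ^ s) v y) := by ring
          _ = (C.pi u * (C.P ^ r) u x) * (C.P u v * (C.P ^ s) v y) := by rw [this]
          _ = _ := by ring
      rw [h1]
      have h2 : (G y - G x) ^ 2 ≤ 3 * ((G y - G v) ^ 2 + 1 + (G x - G u) ^ 2) := by
        have h3 : G y - G x = (G y - G v) + (G v - G u) - (G x - G u) := by ring
        rw [h3]
        nlinarith [sq_nonneg ((G y - G v) - (G v - G u)), sq_nonneg ((G y - G v) + (G x - G u)),
          sq_nonneg ((G v - G u) + (G x - G u))]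
      have h4 : 0 ≤ (C.P ^ r) u x * (C.P ^ s) v y :=
        mul_nonneg (C.pow_nonneg' r u x) (C.pow_nonneg' s v y)
      calc (C.pi u * C.P u v) * ((C.P ^ r) u x * (C.P ^ s) v y) * (G y - G x) ^ 2
          ≤ (C.pi u * C.P u v) * ((C.P ^ r) u x * (C.P ^ s) v y) *
              (3 * ((G y - G v) ^ 2 + 1 + (G x - G u) ^ 2)) :=
            mul_le_mul_of_nonneg_left h2 (mul_nonneg hw h4)
        _ = _ := by ring
    have hsumy : ∀ x, ∑ y, (C.P ^ s) v y * (3 * ((G y - G v) ^ 2 + 1 + (G x - G u) ^ 2))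
        ≤ 3 * (C.Psi a N s v + 1 + (G x - G u) ^ 2) := by
      intro x
      have h1 := C.le_Psi a N s v hk
      have e1 : ∑ y, (C.P ^ s) v y * (3 * ((G y - G v) ^ 2 + 1 + (G x - G u) ^ 2))
          = 3 * (∑ y, (C.P ^ s) v y * (G y - G v) ^ 2
              + (∑ y, (C.P ^ s) v y) * (1 + (G x - G u) ^ 2)) := by
        rw [Finset.sum_mul, ← Finset.sum_add_distrib, Finset.mul_sum]
        exact Finset.sum_congr rfl fun y _ => by ring
      rw [e1, C.pow_sum, one_mul]
      rw [hG] at *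
      linarith
    have hsumx : ∑ x, (C.P ^ r) u x * (3 * (C.Psi a N s v + 1 + (G x - G u) ^ 2))
        ≤ 3 * (C.Psi a N s v + 1 + C.Psi a N r u) := by
      have h1 := C.le_Psi a N r u hk
      have e1 : ∑ x, (C.P ^ r) u x * (3 * (C.Psi a N s v + 1 + (G x - G u) ^ 2))
          = 3 * ((∑ x, (C.P ^ r) u x) * (C.Psi a N s v + 1)
              + ∑ x, (C.P ^ r) u x * (G x - G u) ^ 2) := by
        rw [Finset.sum_mul, ← Finset.sum_add_distrib, Finset.mul_sum]
        exact Finset.sum_congr rfl fun y _ => by ring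
      rw [e1, C.pow_sum, one_mul]
      rw [hG] at *
      linarith
    calc ∑ x, ∑ y, C.pi x * C.pth t x y r u v * (G y - G x) ^ 2
        ≤ ∑ x, ∑ y, (C.pi u * C.P u v) * ((C.P ^ r) u x * ((C.P ^ s) v y *
            (3 * ((G y - G v) ^ 2 + 1 + (G x - G u) ^ 2)))) :=
          Finset.sum_le_sum fun x _ => Finset.sum_le_sum fun y _ => e x y
      _ = (C.pi u * C.P u v) * ∑ x, (C.P ^ r) u x * ∑ y, (C.P ^ s) v y *
            (3 * ((G y - G v) ^ 2 + 1 + (G x - G u) ^ 2)) := by
          rw [Finset.mul_sum]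
          refine Finset.sum_congr rfl fun x _ => ?_
          rw [Finset.mul_sum, Finset.mul_sum]
      _ ≤ (C.pi u * C.P u v) * ∑ x, (C.P ^ r) u x * (3 * (C.Psi a N s v + 1 + (G x - G u) ^ 2)) := by
          refine mul_le_mul_of_nonneg_left ?_ hw
          exact Finset.sum_le_sum fun x _ =>
            mul_le_mul_of_nonneg_left (hsumy x) (C.pow_nonneg' r u x)
      _ ≤ (C.pi u * C.P u v) * (3 * (C.Psi a N s v + 1 + C.Psi a N r u)) :=
          mul_le_mul_of_nonneg_left hsumx hw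
      _ = _ := by ring

/-- Pull a sum out of a double sum. -/
lemma swap_out {α β γ : Type} (X : Finset α) (Y : Finset β) (I : Finset γ) (G : α → β → γ → ℝ) :
    ∑ x ∈ X, ∑ y ∈ Y, ∑ i ∈ I, G x y i = ∑ i ∈ I, ∑ x ∈ X, ∑ y ∈ Y, G x y i := by
  calc ∑ x ∈ X, ∑ y ∈ Y, ∑ i ∈ I, G x y i = ∑ x ∈ X, ∑ i ∈ I, ∑ y ∈ Y, G x y i :=
        Finset.sum_congr rfl fun x _ => Finset.sum_comm
    _ = _ := Finset.sum_comm

/-- Third moment in terms of the averaged scalar second moments. -/
lemma third_moment {a : ℕ → S → ℝ} {N : ℕ} (hL : C.Lip a N) (t : ℕ) :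
    ∑ x, ∑ y, C.pi x * (C.P ^ t) x y * (Dd a N x y) ^ 3
      ≤ 9 * ∑ r ∈ range t, (C.Phi a N (t - 1 - r) + 1 + C.Phi a N r) := by
  -- the summand after exchanging the order of summation
  let F : ℕ → ℕ → S → S → S → S → ℝ := fun i r u v x y =>
    C.pi x * (C.pth t x y r u v * (|a i v - a i u| * ((Gs a i y - Gs a i x) ^ 2
      + (Gs a (i + 1) y - Gs a (i + 1) x) ^ 2)))
  have hpoint : ∀ x y, C.pi x * (C.P ^ t) x y * (Dd a N x y) ^ 3
      ≤ (3 / 2) * ∑ i ∈ range N, ∑ r ∈ range t, ∑ u, ∑ v, F i r u v x y := by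
    intro x y
    have h := mul_le_mul_of_nonneg_left (C.strong_pointwise a N t x y) (C.pi_nonneg x)
    refine le_trans (le_of_eq (by ring)) (h.trans (le_of_eq ?_))
    rw [mul_left_comm]
    congr 1
    rw [Finset.mul_sum]
    refine Finset.sum_congr rfl fun i _ => ?_
    rw [Finset.mul_sum]
    refine Finset.sum_congr rfl fun r _ => ?_
    rw [Finset.mul_sum]
    refine Finset.sum_congr rfl fun u _ => ?_
    rw [Finset.mul_sum]
  have hswap : ∑ x, ∑ y, ∑ i ∈ range N, ∑ r ∈ range t, ∑ u, ∑ v, F i r u v x y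
      = ∑ r ∈ range t, ∑ u, ∑ v, ∑ i ∈ range N, ∑ x, ∑ y, F i r u v x y := by
    rw [swap_out]
    calc ∑ i ∈ range N, ∑ x, ∑ y, ∑ r ∈ range t, ∑ u, ∑ v, F i r u v x y
        = ∑ i ∈ range N, ∑ r ∈ range t, ∑ u, ∑ v, ∑ x, ∑ y, F i r u v x y := by
          refine Finset.sum_congr rfl fun i _ => ?_
          rw [swap_out]
          refine Finset.sum_congr rfl fun r _ => ?_
          rw [swap_out]
          refine Finset.sum_congr rfl fun u _ => ?_
          rw [swap_out]
      _ = ∑ r ∈ range t, ∑ i ∈ range N, ∑ u, ∑ v, ∑ x, ∑ y, F i r u v x y := Finset.sum_comm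
      _ = ∑ r ∈ range t, ∑ u, ∑ i ∈ range N, ∑ v, ∑ x, ∑ y, F i r u v x y :=
          Finset.sum_congr rfl fun r _ => Finset.sum_comm
      _ = _ := Finset.sum_congr rfl fun r _ => Finset.sum_congr rfl fun u _ => Finset.sum_comm
  have hlocal : ∀ r ∈ range t, ∀ u v i, i ∈ range N → ∑ x, ∑ y, F i r u v x y
      ≤ |a i v - a i u| * (6 * (C.pi u * C.P u v) *
          (C.Psi a N (t - 1 - r) v + 1 + C.Psi a N r u)) := by
    intro r _ u v i hi
    have hi' : i < N := Finset.mem_range.mp hi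
    have h1 := C.local_bound hL t r u v (k := i) (by omega)
    have h2 := C.local_bound hL t r u v (k := i + 1) (by omega)
    have e : ∑ x, ∑ y, F i r u v x y = |a i v - a i u| *
        (∑ x, ∑ y, C.pi x * C.pth t x y r u v * (Gs a i y - Gs a i x) ^ 2
          + ∑ x, ∑ y, C.pi x * C.pth t x y r u v * (Gs a (i + 1) y - Gs a (i + 1) x) ^ 2) := by
      rw [← Finset.sum_add_distrib, Finset.mul_sum]
      refine Finset.sum_congr rfl fun x _ => ?_
      rw [← Finset.sum_add_distrib, Finset.mul_sum]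
      refine Finset.sum_congr rfl fun y _ => ?_
      simp only [F]
      ring
    rw [e]
    refine mul_le_mul_of_nonneg_left ?_ (abs_nonneg _)
    linarith
  have hPsiNN : ∀ r u v, 0 ≤ C.Psi a N (t - 1 - r) v + 1 + C.Psi a N r u := by
    intro r u v
    have h1 := C.Psi_nonneg a N (t - 1 - r) v
    have h2 := C.Psi_nonneg a N r u
    linarith
  have hi : ∀ r ∈ range t, ∀ u v, ∑ i ∈ range N, ∑ x, ∑ y, F i r u v x y
      ≤ 6 * (C.pi u * C.P u v * (C.Psi a N (t - 1 - r) v + 1 + C.Psi a N r u)) := by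
    intro r hr u v
    calc ∑ i ∈ range N, ∑ x, ∑ y, F i r u v x y
        ≤ ∑ i ∈ range N, |a i v - a i u| * (6 * (C.pi u * C.P u v) *
            (C.Psi a N (t - 1 - r) v + 1 + C.Psi a N r u)) :=
          Finset.sum_le_sum fun i hi => hlocal r hr u v i hi
      _ = (∑ i ∈ range N, |a i v - a i u|) * (6 * (C.pi u * C.P u v) *
            (C.Psi a N (t - 1 - r) v + 1 + C.Psi a N r u)) := by rw [Finset.sum_mul]
      _ ≤ 1 * (6 * (C.pi u * C.P u v) *
            (C.Psi a N (t - 1 - r) v + 1 + C.Psi a N r u)) := by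
          by_cases hP : C.P u v = 0
          · simp [hP]
          · refine mul_le_mul_of_nonneg_right (hL u v hP) ?_
            exact mul_nonneg (mul_nonneg (by norm_num)
              (mul_nonneg (C.pi_nonneg u) (C.P_nonneg u v))) (hPsiNN r u v)
      _ = _ := by ring
  have hsumuv : ∀ r, ∑ u, ∑ v, (C.pi u * C.P u v * (C.Psi a N (t - 1 - r) v + 1 + C.Psi a N r u))
      = C.Phi a N (t - 1 - r) + 1 + C.Phi a N r := by
    intro r
    have e1 : ∑ u, ∑ v, C.pi u * C.P u v * C.Psi a N (t - 1 - r) v = C.Phi a N (t - 1 - r) := by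
      rw [Finset.sum_comm]
      unfold Phi
      refine Finset.sum_congr rfl fun v _ => ?_
      rw [← Finset.sum_mul]
      have := C.pow_stationary 1 v
      simp only [pow_one] at this
      rw [this]
    have e2 : ∑ u, ∑ v, C.pi u * C.P u v * C.Psi a N r u = C.Phi a N r := by
      unfold Phi
      refine Finset.sum_congr rfl fun u _ => ?_
      rw [← Finset.sum_mul, ← Finset.mul_sum, C.P_sum, mul_one]
    have e3 : ∑ u, ∑ v, (C.pi u * C.P u v * (C.Psi a N (t - 1 - r) v + 1 + C.Psi a N r u))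
        = ∑ u, ∑ v, C.pi u * C.P u v * C.Psi a N (t - 1 - r) v + ∑ u, ∑ v, C.pi u * C.P u v
          + ∑ u, ∑ v, C.pi u * C.P u v * C.Psi a N r u := by
      simp only [mul_add, mul_one, Finset.sum_add_distrib]
    rw [e3, e1, e2, C.edge_sum]
  calc ∑ x, ∑ y, C.pi x * (C.P ^ t) x y * (Dd a N x y) ^ 3
      ≤ ∑ x, ∑ y, (3 / 2) * ∑ i ∈ range N, ∑ r ∈ range t, ∑ u, ∑ v, F i r u v x y :=
        Finset.sum_le_sum fun x _ => Finset.sum_le_sum fun y _ => hpoint x y
    _ = (3 / 2) * ∑ r ∈ range t, ∑ u, ∑ v, ∑ i ∈ range N, ∑ x, ∑ y, F i r u v x y := by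
        rw [← hswap, Finset.mul_sum]
        refine Finset.sum_congr rfl fun x _ => ?_
        rw [Finset.mul_sum]
    _ ≤ (3 / 2) * ∑ r ∈ range t, ∑ u, ∑ v,
          (6 * (C.pi u * C.P u v * (C.Psi a N (t - 1 - r) v + 1 + C.Psi a N r u))) := by
        refine mul_le_mul_of_nonneg_left ?_ (by norm_num)
        exact Finset.sum_le_sum fun r hr => Finset.sum_le_sum fun u _ =>
          Finset.sum_le_sum fun v _ => hi r hr u v
    _ = 9 * ∑ r ∈ range t, (C.Phi a N (t - 1 - r) + 1 + C.Phi a N r) := by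
        simp only [← hsumuv]
        rw [Finset.mul_sum, Finset.mul_sum]
        refine Finset.sum_congr rfl fun r _ => ?_
        rw [Finset.mul_sum, Finset.mul_sum]
        refine Finset.sum_congr rfl fun u _ => ?_
        rw [Finset.mul_sum, Finset.mul_sum]
        refine Finset.sum_congr rfl fun v _ => ?_
        ring

/-- The eight thirds power, written as `t^2 * t^(2/3)`. -/
noncomputable def psi83 (t : ℕ) : ℝ := t * psi53 t

/-- Third moment bound for a lazy chain. -/
lemma lazy_third_moment (hlazy : ∀ w, 1 / 2 ≤ C.P w w) {a : ℕ → S → ℝ} {N : ℕ} (hL : C.Lip a N)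
    (t : ℕ) :
    ∑ x, ∑ y, C.pi x * (C.P ^ t) x y * (Dd a N x y) ^ 3 ≤ 2637 * psi83 t := by
  have h := C.third_moment hL t
  have hterm : ∀ r ∈ range t, C.Phi a N (t - 1 - r) + 1 + C.Phi a N r ≤ 293 * psi53 t := by
    intro r hr
    have hr' : r < t := Finset.mem_range.mp hr
    have h1 := C.Phi_growth hlazy hL (t - 1 - r)
    have h2 := C.Phi_growth hlazy hL r
    have h3 : psi53 (t - 1 - r) ≤ psi53 t := psi53_mono (by omega)
    have h4 : psi53 r ≤ psi53 t := psi53_mono (by omega)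
    have h5 : (1 : ℝ) ≤ psi53 t := by
      have ht : 1 ≤ t := by omega
      have h6 : psi53 1 ≤ psi53 t := psi53_mono ht
      have h7 : psi53 1 = 1 := by simp [psi53, tp]
      linarith
    linarith
  calc ∑ x, ∑ y, C.pi x * (C.P ^ t) x y * (Dd a N x y) ^ 3
      ≤ 9 * ∑ r ∈ range t, (C.Phi a N (t - 1 - r) + 1 + C.Phi a N r) := h
    _ ≤ 9 * ∑ _r ∈ range t, (293 * psi53 t) :=
        mul_le_mul_of_nonneg_left (Finset.sum_le_sum hterm) (by norm_num)
    _ = 2637 * psi83 t := by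
        rw [Finset.sum_const, Finset.card_range, nsmul_eq_mul]
        unfold psi83
        ring

end Chain

end Vale.Agent.Lib.P125
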